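import Vale.Agent.P298.H714.Uni
import Vale.Agent.P298.H967.Ideal
import Vale.Agent.P298.H373.Inst

/-!
P298, row E1-LOW (helper714), part 15: the ideals `I_N` have finite colength.
-/

namespace Vale.Agent.P298.H714

open Filter Topology Metric Set Vale.Agent.P298 Module
open Vale.Agent.P298.H967 (IK inI_mem_IK nul_le_IK self_mem_IK inI_pow inI_mono)
open Vale.Agent.P298.H379 (InI)

variable {n d : ℕ}

theorem finite_of_qM {M : ℕ} {I : Ideal (AnFun n)} (h : qM n M ≤ I) :
    Module.Finite ℂ (AnFun n ⧸ I) := by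
  classical
  let φ : (MvPolynomial.restrictTotalDegree (Fin n) ℂ (M + 1)) →ₗ[ℂ] (AnFun n ⧸ I) :=
    (Ideal.Quotient.mkₐ ℂ I).toLinearMap ∘ₗ (H766.toAn n).toLinearMap ∘ₗ
      (MvPolynomial.restrictTotalDegree (Fin n) ℂ (M + 1)).subtype
  refine Module.Finite.of_surjective φ fun y => ?_
  obtain ⟨f, rfl⟩ := Ideal.Quotient.mk_surjective y
  set p := (H766.T n f).truncTotal (M + 1) with hp
  have hdeg : p.totalDegree < M + 1 := MvPowerSeries.totalDegree_truncTotal_lt _ (Nat.succ_ne_zero M)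
  refine ⟨⟨p, (MvPolynomial.mem_restrictTotalDegree _ _ _).2 hdeg.le⟩, ?_⟩
  change Ideal.Quotient.mk I (H766.toAn n p) = _
  rw [eq_comm, Ideal.Quotient.eq]
  apply h
  apply H766.mem_qM_of_order
  rw [map_sub, H766.T_toAn]
  refine le_trans ?_ (H766.exists_trunc (M + 1) (H766.T n f))
  exact_mod_cast Nat.le_succ M

theorem finite_IK {f e e' : (Fin 3 → ℂ) → ℂ} (hf : Hol f) (he : Hol e) (he' : Hol e')
    (hd : Colength ![f, e, e'] d) {k N : ℝ} (hk : 0 < k) (hI : InI f k e) (hI' : InI f k e')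
    (hN : 0 < N) : Module.Finite ℂ (AnFun 3 ⧸ IK f N) := by
  have hs : ∀ j, Hol ((![f, e, e'] : Fin 3 → (Fin 3 → ℂ) → ℂ) j) := by
    intro j; fin_cases j <;> assumption
  have hpow : ∀ g : AnFun 3, InI f k (g : (Fin 3 → ℂ) → ℂ) → g ∈ (IK f N).radical := by
    intro g hg
    obtain ⟨p, hp⟩ := exists_nat_gt (N / k)
    have hp0 : (0 : ℝ) < p := (div_pos hN hk).trans hp
    have hp1 : p ≠ 0 := by
      rintro rfl
      simp at hp0
    refine ⟨p, inI_mem_IK ?_⟩
    have h1 := inI_pow hg hp1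
    have h2 : N ≤ p * k := by
      rw [div_lt_iff₀ hk] at hp
      exact hp.le
    exact inI_mono h1 hN h2
  have hrad : locIdeal (Set.range ![f, e, e']) ≤ (IK f N).radical := by
    unfold locIdeal
    rw [Ideal.span_le]
    rintro h (hh | hh)
    · exact Ideal.le_radical (nul_le_IK hN (mem_nul.2 hh))
    · obtain ⟨j, hj⟩ := hh
      fin_cases j
      · have : h = ⟨f, hf⟩ := Subtype.ext hj.symm
        rw [this]
        exact Ideal.le_radical (self_mem_IK hf hN)
      · have : h = ⟨e, he⟩ := Subtype.ext hj.symm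
        rw [this]
        exact hpow _ hI
      · have : h = ⟨e', he'⟩ := Subtype.ext hj.symm
        rw [this]
        exact hpow _ hI'
  have hfin : Module.Finite ℂ (MvPowerSeries (Fin 3) ℂ ⧸ H766.tayIdeal (H766.toA ![f, e, e'] hs)) :=
    ((H766.colength_iff _ hs d).1 hd).1
  obtain ⟨M, hM⟩ := H766.exists_qM_le (H766.toA ![f, e, e'] hs)
  rw [← H766.locIdeal_eq] at hM
  have hmX : mX 3 ≤ (IK f N).radical := by
    unfold mX
    rw [Ideal.span_le]
    rintro _ ⟨i, rfl⟩
    have h1 : coordF 3 i ^ M ∈ (IK f N).radical :=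
      hrad (hM (H766.mX_pow_le_qM M (Ideal.pow_mem_pow (H766.coordF_mem i) M)))
    exact (Ideal.radical_isRadical _) ⟨M, h1⟩
  have hfg : (mX 3).FG := by
    classical
    exact ⟨Finset.univ.image (coordF 3), by simp [mX]⟩
  obtain ⟨M', hM'⟩ := Ideal.exists_pow_le_of_le_radical_of_fg hmX hfg
  exact finite_of_qM (M := M') (sup_le (nul_le_IK hN) hM')

end Vale.Agent.P298.H714
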