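import Vale.Agent.P298.H766.Unc

/-!
P298, row E1-LOW (helper714), part 6: formal power series. The quotient `ℂ⟦x⟧ / I` as a free
`ℂ⟦t⟧`-module, and the Taylor series in one variable.
-/

namespace Vale.Agent.P298.H714

open Filter Topology Metric Vale.Agent.P298 Module
open Vale.Agent.P298.H766 (ser serIdeal ser_mul ser_add ser_sub ser_const ser_congr ser_sum
  constantCoeff_ser colength_iff_ser)
open _root_.P298.H824 (zhom zhom_X mem_of_forall_mem_sup_pow span_eq_top_of_separated zhom_finite)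

variable {n d : ℕ}

/-- formal power series -/
abbrev RR (n : ℕ) : Type := MvPowerSeries (Fin n) ℂ

theorem zhom_C (I : Ideal (RR n)) (z : RR n) (hz : MvPowerSeries.constantCoeff z = 0) (c : ℂ) :
    zhom I z hz (PowerSeries.C c) = Ideal.Quotient.mk I (MvPowerSeries.C c) := by
  have h6 := (zhom I z hz).commutes c
  rw [PowerSeries.algebraMap_apply] at h6
  simp only [Algebra.algebraMap_self, RingHom.id_apply] at h6
  rw [h6]
  rfl

/-- reduction of `zhom` modulo `z` -/
theorem zhom_eq (I : Ideal (RR n)) (z : RR n) (hz : MvPowerSeries.constantCoeff z = 0)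
    (h : PowerSeries ℂ) : ∃ g : RR n, zhom I z hz h =
      Ideal.Quotient.mk I (MvPowerSeries.C (PowerSeries.constantCoeff h) + z * g) := by
  obtain ⟨q, hq⟩ : (PowerSeries.X : PowerSeries ℂ) ∣ h - PowerSeries.C (PowerSeries.constantCoeff h) := by
    rw [PowerSeries.X_dvd_iff]; simp
  obtain ⟨g, hg⟩ := Ideal.Quotient.mk_surjective (zhom I z hz q)
  refine ⟨g, ?_⟩
  have h1 : h = PowerSeries.C (PowerSeries.constantCoeff h) + PowerSeries.X * q := by
    rw [← hq]; ring
  conv_lhs => rw [h1]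
  rw [map_add, map_mul, zhom_X, zhom_C, ← hg, map_add, map_mul]

section basis

variable {I : Ideal (RR n)} {z : RR n} (hz : MvPowerSeries.constantCoeff z = 0)
  (hreg : ∀ x, z * x ∈ I → x ∈ I) {b : Fin d → RR n}
  (hind : ∀ c : Fin d → ℂ, (∑ l, MvPowerSeries.C (c l) * b l) ∈ I ⊔ Ideal.span {z} → c = 0)

include hreg hind

/-- independence over `ℂ⟦t⟧` -/
theorem zhom_indep : ∀ h : Fin d → PowerSeries ℂ,
    ∑ l, zhom I z hz (h l) * Ideal.Quotient.mk I (b l) = 0 → h = 0 := by
  have key : ∀ (p : ℕ) (h : Fin d → PowerSeries ℂ),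
      ∑ l, zhom I z hz (h l) * Ideal.Quotient.mk I (b l) = 0 →
        ∀ l, PowerSeries.coeff p (h l) = 0 := by
    have base : ∀ h : Fin d → PowerSeries ℂ,
        ∑ l, zhom I z hz (h l) * Ideal.Quotient.mk I (b l) = 0 →
          ∀ l, PowerSeries.constantCoeff (h l) = 0 := by
      intro h hh l
      choose g hg using fun l => zhom_eq I z hz (h l)
      have h1 : (∑ l, MvPowerSeries.C (PowerSeries.constantCoeff (h l)) * b l) ∈
          I ⊔ Ideal.span {z} := by
        have h2 : (∑ l, (MvPowerSeries.C (PowerSeries.constantCoeff (h l)) + z * g l) * b l) ∈ I := by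
          rw [← Ideal.Quotient.eq_zero_iff_mem, map_sum, ← hh]
          exact Finset.sum_congr rfl fun l _ => by rw [hg, map_mul]
        have h3 : (∑ l, MvPowerSeries.C (PowerSeries.constantCoeff (h l)) * b l) =
            (∑ l, (MvPowerSeries.C (PowerSeries.constantCoeff (h l)) + z * g l) * b l) +
              (- ∑ l, g l * b l) * z := by
          rw [neg_mul, Finset.sum_mul, ← sub_eq_add_neg, ← Finset.sum_sub_distrib]
          exact Finset.sum_congr rfl fun l _ => by ring
        rw [h3]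
        exact Submodule.add_mem_sup h2 (Ideal.mul_mem_left _ _ (Ideal.mem_span_singleton_self _))
      exact congrFun (hind _ h1) l
    intro p
    induction p with
    | zero =>
      intro h hh l
      rw [PowerSeries.coeff_zero_eq_constantCoeff_apply]
      exact base h hh l
    | succ p ih =>
      intro h hh l
      have h0 := base h hh
      choose q hq using fun l => (PowerSeries.X_dvd_iff (φ := h l)).2 (h0 l)
      have h1 : ∑ l, zhom I z hz (q l) * Ideal.Quotient.mk I (b l) = 0 := by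
        obtain ⟨y, hy⟩ := Ideal.Quotient.mk_surjective
          (∑ l, zhom I z hz (q l) * Ideal.Quotient.mk I (b l))
        rw [← hy, Ideal.Quotient.eq_zero_iff_mem]
        apply hreg
        rw [← Ideal.Quotient.eq_zero_iff_mem, map_mul, hy, Finset.mul_sum, ← hh]
        refine Finset.sum_congr rfl fun l _ => ?_
        conv_rhs => rw [hq l, map_mul, zhom_X]
        ring
      have h2 := ih q h1 l
      rw [hq l, PowerSeries.coeff_succ_X_mul]
      exact h2
  intro h hh
  funext l
  ext p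
  exact key p h hh l

end basis

/-- The colength along the curve `I` of a function in terms of the determinant of the matrix of
multiplication. -/
theorem colength_det {I : Ideal (RR n)} {z : RR n} (hz : MvPowerSeries.constantCoeff z = 0)
    (hreg : ∀ x, z * x ∈ I → x ∈ I) {b : Fin d → RR n}
    (hind : ∀ c : Fin d → ℂ, (∑ l, MvPowerSeries.C (c l) * b l) ∈ I ⊔ Ideal.span {z} → c = 0)
    (hspan : ∀ g : RR n, ∃ c : Fin d → ℂ,
      g - ∑ l, MvPowerSeries.C (c l) * b l ∈ I ⊔ Ideal.span {z})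
    (g : RR n) (m : Matrix (Fin d) (Fin d) (PowerSeries ℂ))
    (hm : ∀ l, Ideal.Quotient.mk I (g * b l) =
      ∑ k, zhom I z hz (m l k) * Ideal.Quotient.mk I (b k)) (e : ℕ) :
    (Module.Finite ℂ ((RR n) ⧸ (I ⊔ Ideal.span {g})) ∧
      finrank ℂ ((RR n) ⧸ (I ⊔ Ideal.span {g})) = e) ↔ m.det.order = e := by
  classical
  let : Algebra (PowerSeries ℂ) ((RR n) ⧸ I) := (zhom I z hz).toRingHom.toAlgebra
  have hsmul : ∀ (a : PowerSeries ℂ) (r : (RR n) ⧸ I), a • r = zhom I z hz a * r :=
    fun a r => rfl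
  have htower : IsScalarTower ℂ (PowerSeries ℂ) ((RR n) ⧸ I) := by
    refine ⟨fun c a r => ?_⟩
    rw [hsmul, hsmul, map_smul, smul_mul_assoc]
  have hli : LinearIndependent (PowerSeries ℂ) (fun l => Ideal.Quotient.mk I (b l)) := by
    rw [Fintype.linearIndependent_iff]
    intro h hh l
    exact congrFun (zhom_indep hz hreg hind h hh) l
  have hsp : ⊤ ≤ Submodule.span (PowerSeries ℂ) (Set.range fun l => Ideal.Quotient.mk I (b l)) := by
    rw [span_eq_top_of_separated (K := ℂ) (M := (RR n) ⧸ I) ?_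
      (fun l => Ideal.Quotient.mk I (b l)) ?_]
    · intro m hm
      obtain ⟨s, rfl⟩ := Ideal.Quotient.mk_surjective m
      rw [Ideal.Quotient.eq_zero_iff_mem]
      apply mem_of_forall_mem_sup_pow I z hz
      intro k
      obtain ⟨m', hm'⟩ := hm k
      obtain ⟨s', rfl⟩ := Ideal.Quotient.mk_surjective m'
      rw [hsmul, map_pow, zhom_X, ← map_pow, ← map_mul, Ideal.Quotient.eq] at hm'
      have : s = (s - z ^ k * s') + s' * z ^ k := by ring
      rw [this]
      exact Submodule.add_mem_sup hm' (Ideal.mul_mem_left _ _ (Ideal.mem_span_singleton_self _))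
    · intro m
      obtain ⟨s, rfl⟩ := Ideal.Quotient.mk_surjective m
      obtain ⟨c, hc⟩ := hspan s
      obtain ⟨x, hx, y, hy, hxy⟩ := Submodule.mem_sup.1 hc
      obtain ⟨w, rfl⟩ := Ideal.mem_span_singleton'.1 hy
      refine ⟨c, Ideal.Quotient.mk I w, ?_⟩
      have h4 : s = ∑ l, MvPowerSeries.C (c l) * b l + (x + w * z) := by
        rw [hxy]; ring
      have h5 : Ideal.Quotient.mk I x = 0 := Ideal.Quotient.eq_zero_iff_mem.2 hx
      conv_lhs => rw [h4]
      rw [map_add, map_sum, map_add, h5, zero_add, hsmul, zhom_X, map_mul, mul_comm]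
      congr 1
      refine Finset.sum_congr rfl fun y _ => ?_
      rw [hsmul, map_mul, zhom_C]
  let B : Basis (Fin d) (PowerSeries ℂ) ((RR n) ⧸ I) := Basis.mk hli hsp
  have hB : ∀ l, B l = Ideal.Quotient.mk I (b l) := fun l => Basis.mk_apply hli hsp l
  have hfree : Module.Free (PowerSeries ℂ) ((RR n) ⧸ I) := Module.Free.of_basis B
  have hfin : Module.Finite (PowerSeries ℂ) ((RR n) ⧸ I) := Module.Finite.of_basis B
  let T : ((RR n) ⧸ I) →ₗ[PowerSeries ℂ] ((RR n) ⧸ I) :=
    LinearMap.mulLeft (PowerSeries ℂ) (Ideal.Quotient.mk I g)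
  have hT : ∀ x, T x = Ideal.Quotient.mk I g * x := fun x => rfl
  have hdet : LinearMap.det T = m.det := by
    rw [← LinearMap.det_toMatrix B, ← Matrix.det_transpose m]
    congr 1
    ext1 k l
    rw [LinearMap.toMatrix_apply, Matrix.transpose_apply, hT, hB, ← map_mul, hm]
    have h7 : (∑ k, zhom I z hz (m l k) * Ideal.Quotient.mk I (b k)) = ∑ k, (m l k) • B k := by
      refine Finset.sum_congr rfl fun k _ => ?_
      rw [hsmul, hB]
    rw [h7, B.repr_sum_self]
  have key := Vale.Agent.P298.H25.finrank_quot_range T e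
  rw [hdet] at key
  rw [← key]
  -- the quotient
  have hrange : ∀ x : RR n, Ideal.Quotient.mk I x ∈ LinearMap.range T ↔ x ∈ I ⊔ Ideal.span {g} := by
    intro x
    constructor
    · rintro ⟨y, hy⟩
      obtain ⟨y, rfl⟩ := Ideal.Quotient.mk_surjective y
      rw [hT, ← map_mul, Ideal.Quotient.eq] at hy
      have : x = -(g * y - x) + y * g := by ring
      rw [this]
      exact Submodule.add_mem_sup (neg_mem hy) (Ideal.mul_mem_left _ _ (Ideal.mem_span_singleton_self _))
    · intro hx
      obtain ⟨u, hu, v, hv, huv⟩ := Submodule.mem_sup.1 hx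
      obtain ⟨w, rfl⟩ := Ideal.mem_span_singleton'.1 hv
      refine ⟨Ideal.Quotient.mk I w, ?_⟩
      rw [hT, ← huv, map_add, Ideal.Quotient.eq_zero_iff_mem.2 hu, zero_add, map_mul, mul_comm]
  let φ : (RR n) →ₗ[ℂ] (((RR n) ⧸ I) ⧸ LinearMap.range T) :=
    ((LinearMap.range T).mkQ.restrictScalars ℂ) ∘ₗ (Ideal.Quotient.mkₐ ℂ I).toLinearMap
  have hφ : ∀ x, φ x = Submodule.Quotient.mk (Ideal.Quotient.mk I x) := fun x => rfl
  have hφs : Function.Surjective φ := by
    intro y
    obtain ⟨y, rfl⟩ := Submodule.Quotient.mk_surjective _ y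
    obtain ⟨y, rfl⟩ := Ideal.Quotient.mk_surjective y
    exact ⟨y, rfl⟩
  have hker : LinearMap.ker φ = (I ⊔ Ideal.span {g}).restrictScalars ℂ := by
    ext x
    rw [LinearMap.mem_ker, hφ, Submodule.Quotient.mk_eq_zero, hrange]
    rfl
  let ε : ((RR n) ⧸ (I ⊔ Ideal.span {g})) ≃ₗ[ℂ] (((RR n) ⧸ I) ⧸ LinearMap.range T) :=
    (Submodule.quotEquivOfEq _ _ hker.symm).trans (φ.quotKerEquivOfSurjective hφs)
  constructor
  · rintro ⟨h1, h2⟩
    exact ⟨Module.Finite.equiv ε, by rw [← ε.finrank_eq, h2]⟩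
  · rintro ⟨h1, h2⟩
    exact ⟨Module.Finite.equiv ε.symm, by rw [ε.finrank_eq, h2]⟩

end Vale.Agent.P298.H714
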