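import Vale.Agent.P298.H714.Ord

/-!
P298, row E1-LOW (helper714), part 12: divergence of integrals of powers of holomorphic functions
of two variables in a cone.
-/

namespace Vale.Agent.P298.H714

open Filter Topology Metric Set MeasureTheory Vale.Agent.P298
open scoped ENNReal NNReal

/-- divergence of `∫ |z|^s`, `s ≤ -2` (after helper707) -/
theorem rpow_ball_top {s : ℝ} (hs : s ≤ -2) {R : ℝ} (hR : 0 < R) :
    ∫⁻ z in Metric.ball (0 : ℂ) R, ENNReal.ofReal (‖z‖ ^ s) = ∞ := by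
  by_contra hcon
  have hmeas : Measurable fun z : ℂ => ‖z‖ ^ s := measurable_norm.pow_const s
  have h0 : IntegrableOn (fun z : ℂ => ‖z‖ ^ s) (Metric.ball (0 : ℂ) R) := by
    refine ⟨hmeas.aestronglyMeasurable, ?_⟩
    rw [hasFiniteIntegral_iff_ofReal]
    · exact lt_top_iff_ne_top.2 hcon
    · exact Eventually.of_forall fun z => Real.rpow_nonneg (norm_nonneg z) s
  have h1 : (fun z : ℂ => (Metric.ball (0 : ℂ) R).indicator (fun z => ‖z‖ ^ s) z)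
      = fun z : ℂ => (Iio R).indicator (fun y : ℝ => y ^ s) ‖z‖ := by
    funext z
    by_cases hz : ‖z‖ < R
    · rw [indicator_of_mem (show z ∈ Metric.ball (0 : ℂ) R by simpa using hz),
        indicator_of_mem (show ‖z‖ ∈ Iio R from hz)]
    · rw [indicator_of_notMem (show z ∉ Metric.ball (0 : ℂ) R by simpa using hz),
        indicator_of_notMem (show ‖z‖ ∉ Iio R from hz)]
  rw [← integrable_indicator_iff Metric.isOpen_ball.measurableSet] at h0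
  have h2 := (integrable_fun_norm_addHaar (E := ℂ) (F := ℝ) (μ := volume)
    (f := (Iio R).indicator (fun y : ℝ => y ^ s))).1
    ((congrArg (fun g => Integrable g volume) h1).mp h0)
  rw [Complex.finrank_real_complex] at h2
  have h3 : IntegrableOn (fun y : ℝ => y ^ (s + 1)) (Ioo 0 R) := by
    have h4 : IntegrableOn (fun y : ℝ => y ^ (2 - 1) • (Iio R).indicator (fun y : ℝ => y ^ s) y)
        (Ioo 0 R) := h2.mono_set Ioo_subset_Ioi_self
    refine h4.congr_fun (fun y hy => ?_) measurableSet_Ioo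
    simp only
    rw [indicator_of_mem (show y ∈ Iio R from hy.2), Real.rpow_add_one hy.1.ne']
    simp [mul_comm]
  rw [intervalIntegral.integrableOn_Ioo_rpow_iff hR] at h3
  linarith

/-- the cone of opening `ε` around the direction (1, u₀) -/
def cone (u₀ : ℂ) (ε t₀ : ℝ) : Set (ℂ × ℂ) :=
  {q | ‖q.1‖ < t₀ ∧ ‖q.2 - q.1 * u₀‖ < ε * ‖q.1‖}

theorem isOpen_cone (u₀ : ℂ) (ε t₀ : ℝ) : IsOpen (cone u₀ ε t₀) := by
  have h1 : IsOpen {q : ℂ × ℂ | ‖q.1‖ < t₀} := isOpen_lt continuous_fst.norm continuous_const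
  have h2 : IsOpen {q : ℂ × ℂ | ‖q.2 - q.1 * u₀‖ < ε * ‖q.1‖} :=
    isOpen_lt (continuous_snd.sub (continuous_fst.mul continuous_const)).norm
      (continuous_const.mul continuous_fst.norm)
  exact h1.inter h2

theorem cone_top {γ : ℝ} (hγ : γ ≤ -4) (u₀ : ℂ) {ε t₀ c : ℝ} (hε : 0 < ε) (ht₀ : 0 < t₀)
    (hc : 0 < c) :
    ∫⁻ q : ℂ × ℂ, (cone u₀ ε t₀).indicator (fun q => ENNReal.ofReal (c * ‖q.1‖ ^ γ)) q = ∞ := by
  have hm : Measurable ((cone u₀ ε t₀).indicator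
      (fun q : ℂ × ℂ => ENNReal.ofReal (c * ‖q.1‖ ^ γ))) := by
    refine Measurable.indicator ?_ (isOpen_cone u₀ ε t₀).measurableSet
    exact ((measurable_fst.norm.pow_const γ).const_mul c).ennreal_ofReal
  rw [Measure.volume_eq_prod, lintegral_prod _ hm.aemeasurable]
  have h1 : ∀ t : ℂ, (∫⁻ v : ℂ, (cone u₀ ε t₀).indicator
      (fun q : ℂ × ℂ => ENNReal.ofReal (c * ‖q.1‖ ^ γ)) (t, v)) =
      (ball (0 : ℂ) t₀).indicator (fun t => ENNReal.ofReal (c * ‖t‖ ^ γ) *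
        volume (ball (t * u₀) (ε * ‖t‖))) t := by
    intro t
    by_cases ht : ‖t‖ < t₀
    · rw [indicator_of_mem (show t ∈ ball (0 : ℂ) t₀ by simpa using ht)]
      have h2 : (fun v : ℂ => (cone u₀ ε t₀).indicator
          (fun q : ℂ × ℂ => ENNReal.ofReal (c * ‖q.1‖ ^ γ)) (t, v)) =
          (ball (t * u₀) (ε * ‖t‖)).indicator (fun _ => ENNReal.ofReal (c * ‖t‖ ^ γ)) := by
        funext v
        by_cases hv : ‖v - t * u₀‖ < ε * ‖t‖
        · rw [indicator_of_mem (show (t, v) ∈ cone u₀ ε t₀ from ⟨ht, hv⟩),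
            indicator_of_mem (show v ∈ ball (t * u₀) (ε * ‖t‖) by
              rw [mem_ball, dist_eq_norm]; exact hv)]
        · rw [indicator_of_notMem (fun h : (t, v) ∈ cone u₀ ε t₀ => hv h.2),
            indicator_of_notMem (fun h : v ∈ ball (t * u₀) (ε * ‖t‖) => hv (by
              rw [mem_ball, dist_eq_norm] at h; exact h))]
      rw [h2, lintegral_indicator isOpen_ball.measurableSet, setLIntegral_const]
    · rw [indicator_of_notMem (fun h : t ∈ ball (0 : ℂ) t₀ => ht (by simpa using h))]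
      have h2 : (fun v : ℂ => (cone u₀ ε t₀).indicator
          (fun q : ℂ × ℂ => ENNReal.ofReal (c * ‖q.1‖ ^ γ)) (t, v)) = fun _ => 0 := by
        funext v
        exact indicator_of_notMem (fun h : (t, v) ∈ cone u₀ ε t₀ => ht h.1) _
      rw [h2, lintegral_zero]
  simp only [h1]
  rw [lintegral_indicator isOpen_ball.measurableSet]
  have h2 : ∀ t : ℂ, ENNReal.ofReal (c * ‖t‖ ^ γ) * volume (ball (t * u₀) (ε * ‖t‖)) =
      ENNReal.ofReal (c * ε ^ 2 * Real.pi) * ENNReal.ofReal (‖t‖ ^ (γ + 2)) := by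
    intro t
    rw [Complex.volume_ball]
    by_cases ht : t = 0
    · subst ht
      rw [norm_zero, mul_zero, Real.zero_rpow (by linarith : γ + 2 ≠ 0)]
      simp
    · have ht' : 0 < ‖t‖ := norm_pos_iff.2 ht
      have h3 : ((NNReal.pi : ℝ≥0) : ℝ≥0∞) = ENNReal.ofReal Real.pi := by
        rw [← NNReal.coe_real_pi, ENNReal.ofReal_coe_nnreal]
      rw [h3, ← ENNReal.ofReal_pow (by positivity), ← ENNReal.ofReal_mul (by positivity),
        ← ENNReal.ofReal_mul (by positivity), ← ENNReal.ofReal_mul (by positivity)]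
      congr 1
      rw [Real.rpow_add ht', Real.rpow_two]
      ring
  simp only [h2]
  rw [lintegral_const_mul' _ _ ENNReal.ofReal_ne_top, rpow_ball_top (by linarith) ht₀,
    ENNReal.mul_top]
  exact (ENNReal.ofReal_pos.2 (by positivity)).ne'

theorem Ord.lower {F : (Fin 2 → ℂ) → ℂ} {ν : ℕ} {P : MvPolynomial (Fin 2) ℂ}
    (hP : P.IsHomogeneous ν) {C : ℝ}
    (hC : ∀ᶠ x in 𝓝 (0 : Fin 2 → ℂ), ‖F x - MvPolynomial.eval x P‖ ≤ C * ‖x‖ ^ (ν + 1))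
    {u₀ : ℂ} (hu₀ : MvPolynomial.eval ![1, u₀] P ≠ 0) :
    ∃ c > 0, ∀ᶠ ε in 𝓝[>] (0 : ℝ), ∀ᶠ t₀ in 𝓝[>] (0 : ℝ), ∀ q ∈ cone u₀ ε t₀,
      c * ‖q.1‖ ^ ν ≤ ‖F ![q.1, q.2]‖ := by
  set c₁ : ℝ := ‖MvPolynomial.eval ![1, u₀] P‖ / 2 with hc₁
  have hc₁' : 0 < c₁ := half_pos (norm_pos_iff.2 hu₀)
  have hcont : Continuous fun u : ℂ => ‖MvPolynomial.eval ![1, u] P‖ := by
    have h1 : Continuous fun x : Fin 2 → ℂ => MvPolynomial.eval x P :=
      MvPolynomial.continuous_eval P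
    refine (h1.comp ?_).norm
    refine continuous_pi fun i => ?_
    fin_cases i
    · exact continuous_const
    · exact continuous_id
  have hev : ∀ᶠ u in 𝓝 u₀, c₁ < ‖MvPolynomial.eval ![1, u] P‖ := by
    refine (hcont.tendsto u₀).eventually (lt_mem_nhds ?_)
    have : 0 < ‖MvPolynomial.eval ![1, u₀] P‖ := norm_pos_iff.2 hu₀
    rw [hc₁]; linarith
  obtain ⟨ε₁, hε₁, Hε₁⟩ := Metric.eventually_nhds_iff_ball.1 hev
  obtain ⟨ρ, hρ, Hρ⟩ := Metric.eventually_nhds_iff_ball.1 hC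
  refine ⟨c₁ / 2, by positivity, ?_⟩
  filter_upwards [Ioo_mem_nhdsGT (lt_min hε₁ one_pos)] with ε hε
  set A : ℝ := ‖u₀‖ + 2 with hA
  have hA1 : 1 ≤ A := by rw [hA]; linarith [norm_nonneg u₀]
  have hA0 : 0 < A := by linarith
  set t₁ : ℝ := min (ρ / A) (c₁ / (2 * (|C| * A ^ (ν + 1) + 1))) with ht₁
  have ht₁0 : 0 < t₁ := lt_min (by positivity) (by positivity)
  filter_upwards [Ioo_mem_nhdsGT ht₁0] with t₀ ht₀ q hq
  obtain ⟨hq1, hq2⟩ := hq
  have ht : 0 < ‖q.1‖ := by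
    by_contra h
    have h1 : ‖q.1‖ = 0 := le_antisymm (not_lt.1 h) (norm_nonneg _)
    rw [h1, mul_zero] at hq2
    exact absurd (norm_nonneg _) (not_le.2 hq2)
  have hne : q.1 ≠ 0 := norm_pos_iff.1 ht
  set u : ℂ := q.2 / q.1 with hu
  have hq2u : q.2 = q.1 * u := by rw [hu, mul_div_cancel₀ _ hne]
  have huε : ‖u - u₀‖ < ε := by
    have h1 : q.2 - q.1 * u₀ = q.1 * (u - u₀) := by rw [hq2u]; ring
    rw [h1, norm_mul, mul_comm] at hq2
    exact lt_of_mul_lt_mul_right hq2 ht.le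
  have hub : u ∈ ball u₀ ε₁ := by
    rw [mem_ball, dist_eq_norm]; exact huε.trans (hε.2.trans_le (min_le_left _ _))
  have huA : ‖u‖ ≤ A := by
    have h1 : ‖u‖ ≤ ‖u - u₀‖ + ‖u₀‖ := by
      calc ‖u‖ = ‖(u - u₀) + u₀‖ := by rw [sub_add_cancel]
        _ ≤ _ := norm_add_le _ _
    have h2 : ε < 1 := hε.2.trans_le (min_le_right _ _)
    rw [hA]; linarith
  have hx : (![q.1, q.2] : Fin 2 → ℂ) = q.1 • ![1, u] := by
    funext i
    fin_cases i
    · simp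
    · simp [hq2u]
  have hn1 : ‖(![1, u] : Fin 2 → ℂ)‖ ≤ A := by
    rw [pi_norm_le_iff_of_nonneg hA0.le]
    intro i
    fin_cases i
    · simpa using hA1
    · simpa using huA
  have hxn : ‖(![q.1, q.2] : Fin 2 → ℂ)‖ ≤ A * ‖q.1‖ := by
    rw [hx, norm_smul, mul_comm]
    exact mul_le_mul_of_nonneg_right hn1 (norm_nonneg _)
  have hqt : ‖q.1‖ < t₁ := hq1.trans ht₀.2
  have hxρ : (![q.1, q.2] : Fin 2 → ℂ) ∈ ball (0 : Fin 2 → ℂ) ρ := by
    rw [mem_ball_zero_iff]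
    refine hxn.trans_lt ?_
    have : ‖q.1‖ < ρ / A := hqt.trans_le (min_le_left _ _)
    rw [lt_div_iff₀ hA0] at this
    linarith
  have h1 := Hρ _ hxρ
  have h2 : c₁ * ‖q.1‖ ^ ν ≤ ‖MvPolynomial.eval ![q.1, q.2] P‖ := by
    rw [hx, eval_smul_hom hP, norm_mul, norm_pow, mul_comm]
    exact mul_le_mul_of_nonneg_left (Hε₁ u hub).le (by positivity)
  have h3 : C * ‖(![q.1, q.2] : Fin 2 → ℂ)‖ ^ (ν + 1) ≤ c₁ / 2 * ‖q.1‖ ^ ν := by
    have h4 : ‖q.1‖ ≤ c₁ / (2 * (|C| * A ^ (ν + 1) + 1)) := (hqt.trans_le (min_le_right _ _)).le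
    rw [le_div_iff₀ (by positivity)] at h4
    calc C * ‖(![q.1, q.2] : Fin 2 → ℂ)‖ ^ (ν + 1) ≤ |C| * (A * ‖q.1‖) ^ (ν + 1) := by
          refine mul_le_mul (le_abs_self C) (pow_le_pow_left₀ (norm_nonneg _) hxn _)
            (by positivity) (abs_nonneg C)
      _ = (‖q.1‖ * (|C| * A ^ (ν + 1))) * ‖q.1‖ ^ ν := by rw [mul_pow]; ring
      _ ≤ c₁ / 2 * ‖q.1‖ ^ ν := by
          refine mul_le_mul_of_nonneg_right ?_ (by positivity)
          nlinarith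
  have h5 : ‖MvPolynomial.eval ![q.1, q.2] P‖ ≤ ‖F ![q.1, q.2]‖ +
      ‖F ![q.1, q.2] - MvPolynomial.eval ![q.1, q.2] P‖ := by
    have h6 : MvPolynomial.eval ![q.1, q.2] P = F ![q.1, q.2] -
        (F ![q.1, q.2] - MvPolynomial.eval ![q.1, q.2] P) := by ring
    conv_lhs => rw [h6]
    exact norm_sub_le _ _
  nlinarith

/-- **Divergence**: `∫ |F|^p |q|^(-β) = ∞` if `p ν - β ≤ -4`, even on `{G ≠ 0}`. -/
theorem int_top {F G : (Fin 2 → ℂ) → ℂ} {ν ν' : ℕ} (hF : Ord F ν) (hG : Ord G ν')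
    {p β c ρ : ℝ} (hp : 0 ≤ p) (hc : 0 < c) (hρ : 0 < ρ) (hexp : p * ν - β ≤ -4)
    {W : ℂ × ℂ → ℝ≥0∞}
    (hW : ∀ᵐ q : ℂ × ℂ, q ≠ 0 → ‖q‖ < ρ → G ![q.1, q.2] ≠ 0 →
      ENNReal.ofReal (c * ‖F ![q.1, q.2]‖ ^ p * ‖q‖ ^ (-β)) ≤ W q) :
    ∫⁻ q, W q = ∞ := by
  obtain ⟨P, hP, hP0, C, hC⟩ := hF
  obtain ⟨P', hP', hP0', C', hC'⟩ := hG
  obtain ⟨w, hw⟩ : ∃ w : Fin 2 → ℂ, MvPolynomial.eval w (P * P' * MvPolynomial.X 0) ≠ 0 := by
    by_contra hcon
    push Not at hcon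
    have h1 : P * P' * MvPolynomial.X 0 = 0 := MvPolynomial.funext fun x => by
      rw [hcon x, map_zero]
    exact mul_ne_zero (mul_ne_zero hP0 hP0') (MvPolynomial.X_ne_zero 0) h1
  rw [map_mul, map_mul, MvPolynomial.eval_X] at hw
  have hw0 : w 0 ≠ 0 := right_ne_zero_of_mul hw
  have hwP : MvPolynomial.eval w P ≠ 0 := left_ne_zero_of_mul (left_ne_zero_of_mul hw)
  have hwP' : MvPolynomial.eval w P' ≠ 0 := right_ne_zero_of_mul (left_ne_zero_of_mul hw)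
  set u₀ : ℂ := w 1 / w 0 with hu₀
  have hwe : w = w 0 • ![1, u₀] := by
    funext i
    fin_cases i
    · simp
    · simp only [hu₀, Pi.smul_apply, smul_eq_mul]
      change w 1 = w 0 * (w 1 / w 0)
      rw [mul_div_cancel₀ _ hw0]
  have h1 : MvPolynomial.eval ![1, u₀] P ≠ 0 := by
    rw [hwe, eval_smul_hom hP] at hwP
    exact right_ne_zero_of_mul hwP
  have h1' : MvPolynomial.eval ![1, u₀] P' ≠ 0 := by
    rw [hwe, eval_smul_hom hP'] at hwP'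
    exact right_ne_zero_of_mul hwP'
  obtain ⟨c₁, hc₁, H⟩ := Ord.lower hP hC h1
  obtain ⟨c₂, hc₂, H'⟩ := Ord.lower hP' hC' h1'
  obtain ⟨ε, ⟨hε1, hε2⟩, hε0⟩ := ((H.and H').and (Ioo_mem_nhdsGT one_pos)).exists
  have hε : 0 < ε := hε0.1
  set A : ℝ := ‖u₀‖ + 2 with hA
  have hA1 : 1 ≤ A := by rw [hA]; linarith [norm_nonneg u₀]
  have hA0 : 0 < A := by linarith
  obtain ⟨t₀, ⟨ht1, ht2⟩, ht0⟩ := ((hε1.and hε2).and
    (Ioo_mem_nhdsGT (show 0 < ρ / A by positivity))).exists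
  have ht₀ : 0 < t₀ := ht0.1
  set κ : ℝ := min 1 (A ^ (-β)) with hκ
  have hκ0 : 0 < κ := lt_min one_pos (Real.rpow_pos_of_pos hA0 _)
  set c₃ : ℝ := c * c₁ ^ p * κ with hc₃
  have hc₃0 : 0 < c₃ := by positivity
  rw [eq_top_iff, ← cone_top hexp u₀ hε ht₀ hc₃0]
  refine lintegral_mono_ae ?_
  filter_upwards [hW] with q hWq
  by_cases hq : q ∈ cone u₀ ε t₀
  swap
  · rw [indicator_of_notMem hq]; exact zero_le
  rw [indicator_of_mem hq]
  have ht : 0 < ‖q.1‖ := by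
    by_contra h
    have h1 : ‖q.1‖ = 0 := le_antisymm (not_lt.1 h) (norm_nonneg _)
    have h2 := hq.2
    rw [h1, mul_zero] at h2
    exact absurd (norm_nonneg _) (not_le.2 h2)
  have hF1 := ht1 q hq
  have hG1 := ht2 q hq
  have hq1 : ‖q.1‖ ≤ ‖q‖ := norm_fst_le q
  have hq2 : ‖q‖ ≤ A * ‖q.1‖ := by
    rw [Prod.norm_def]
    refine max_le (by nlinarith) ?_
    have h3 : ‖q.2‖ ≤ ‖q.2 - q.1 * u₀‖ + ‖q.1 * u₀‖ := by
      calc ‖q.2‖ = ‖(q.2 - q.1 * u₀) + q.1 * u₀‖ := by rw [sub_add_cancel]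
        _ ≤ _ := norm_add_le _ _
    have h4 := hq.2
    rw [norm_mul] at h3
    have h5 : ε < 1 := hε0.2
    rw [hA]
    nlinarith
  have hqρ : ‖q‖ < ρ := by
    refine hq2.trans_lt ?_
    have h3 : ‖q.1‖ < ρ / A := hq.1.trans ht0.2
    rw [lt_div_iff₀ hA0] at h3
    linarith
  have hqpos : 0 < ‖q‖ := ht.trans_le hq1
  refine le_trans (ENNReal.ofReal_le_ofReal ?_) (hWq (norm_pos_iff.1 hqpos) hqρ ?_)
  · have h3 : κ * ‖q.1‖ ^ (-β) ≤ ‖q‖ ^ (-β) := by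
      by_cases hβ : 0 ≤ β
      · calc κ * ‖q.1‖ ^ (-β) ≤ A ^ (-β) * ‖q.1‖ ^ (-β) :=
              mul_le_mul_of_nonneg_right (min_le_right _ _) (Real.rpow_nonneg (norm_nonneg _) _)
          _ = (A * ‖q.1‖) ^ (-β) := (Real.mul_rpow hA0.le ht.le).symm
          _ ≤ ‖q‖ ^ (-β) := Real.rpow_le_rpow_of_nonpos hqpos hq2 (by linarith)
      · push Not at hβ
        calc κ * ‖q.1‖ ^ (-β) ≤ 1 * ‖q.1‖ ^ (-β) :=
              mul_le_mul_of_nonneg_right (min_le_left _ _) (Real.rpow_nonneg (norm_nonneg _) _)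
          _ = ‖q.1‖ ^ (-β) := one_mul _
          _ ≤ ‖q‖ ^ (-β) := Real.rpow_le_rpow ht.le hq1 (by linarith)
    have h4 : (c₁ * ‖q.1‖ ^ ν) ^ p ≤ ‖F ![q.1, q.2]‖ ^ p :=
      Real.rpow_le_rpow (by positivity) hF1 hp
    have h5 : (c₁ * ‖q.1‖ ^ ν) ^ p = c₁ ^ p * ‖q.1‖ ^ (p * ν) := by
      rw [Real.mul_rpow hc₁.le (by positivity), ← Real.rpow_natCast, ← Real.rpow_mul ht.le,
        mul_comm (ν : ℝ) p]
    calc c₃ * ‖q.1‖ ^ (p * ν - β) = c * (c₁ ^ p * ‖q.1‖ ^ (p * ν)) * (κ * ‖q.1‖ ^ (-β)) := by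
          rw [sub_eq_add_neg, Real.rpow_add ht, hc₃]; ring
      _ ≤ c * ‖F ![q.1, q.2]‖ ^ p * ‖q‖ ^ (-β) := by
          refine mul_le_mul ?_ h3 (by positivity) (by positivity)
          refine mul_le_mul_of_nonneg_left ?_ hc.le
          rw [← h5]; exact h4
  · intro h0
    rw [h0, norm_zero] at hG1
    have : 0 < c₂ * ‖q.1‖ ^ ν' := by positivity
    linarith

end Vale.Agent.P298.H714
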