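import Vale.Agent.P298.H714.Uni

/-!
P298, row E1-LOW (helper714), part 11: the order of vanishing at `0` of functions of two variables.
-/

namespace Vale.Agent.P298.H714

open Filter Topology Metric Set Vale.Agent.P298

/-- `u` has order of vanishing `ν` at `0`: the sum of a nonzero homogeneous polynomial of degree
`ν` and terms of higher order -/
def Ord (u : (Fin 2 → ℂ) → ℂ) (ν : ℕ) : Prop :=
  ∃ P : MvPolynomial (Fin 2) ℂ, P.IsHomogeneous ν ∧ P ≠ 0 ∧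
    ∃ C : ℝ, ∀ᶠ x in 𝓝 (0 : Fin 2 → ℂ), ‖u x - MvPolynomial.eval x P‖ ≤ C * ‖x‖ ^ (ν + 1)

theorem eval_smul_hom {n : ℕ} {P : MvPolynomial (Fin n) ℂ} {ν : ℕ} (hP : P.IsHomogeneous ν)
    (t : ℂ) (x : Fin n → ℂ) :
    MvPolynomial.eval (t • x) P = t ^ ν * MvPolynomial.eval x P := by
  rw [MvPolynomial.eval_eq', MvPolynomial.eval_eq', Finset.mul_sum]
  refine Finset.sum_congr rfl fun d hd => ?_
  have h1 : d.degree = ν := by
    by_contra h
    exact MvPolynomial.mem_support_iff.1 hd (hP.coeff_eq_zero h)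
  rw [← h1, Finsupp.degree_eq_sum, ← Finset.prod_pow_eq_pow_sum]
  simp only [Pi.smul_apply, smul_eq_mul, mul_pow]
  rw [Finset.prod_mul_distrib]
  ring

theorem eval_hom_le {n : ℕ} {P : MvPolynomial (Fin n) ℂ} {ν : ℕ} (hP : P.IsHomogeneous ν) :
    ∃ C : ℝ, 0 ≤ C ∧ ∀ x, ‖MvPolynomial.eval x P‖ ≤ C * ‖x‖ ^ ν := by
  refine ⟨∑ d ∈ P.support, ‖P.coeff d‖, Finset.sum_nonneg fun _ _ => norm_nonneg _, fun x => ?_⟩
  rw [MvPolynomial.eval_eq', Finset.sum_mul]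
  refine (norm_sum_le _ _).trans (Finset.sum_le_sum fun d hd => ?_)
  have h1 : d.degree = ν := by
    by_contra h
    exact MvPolynomial.mem_support_iff.1 hd (hP.coeff_eq_zero h)
  rw [norm_mul, norm_prod, ← h1, Finsupp.degree_eq_sum, ← Finset.prod_pow_eq_pow_sum]
  refine mul_le_mul_of_nonneg_left (Finset.prod_le_prod (fun _ _ => norm_nonneg _) fun i _ => ?_)
    (norm_nonneg _)
  rw [norm_pow]
  exact pow_le_pow_left₀ (norm_nonneg _) (norm_le_pi_norm x i) _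

theorem Ord.upper {u : (Fin 2 → ℂ) → ℂ} {ν : ℕ} (h : Ord u ν) :
    ∃ C : ℝ, 0 < C ∧ ∀ᶠ x in 𝓝 (0 : Fin 2 → ℂ), ‖u x‖ ≤ C * ‖x‖ ^ ν := by
  obtain ⟨P, hP, -, C, hC⟩ := h
  obtain ⟨C', hC'0, hC'⟩ := eval_hom_le hP
  refine ⟨C' + |C| + 1, by positivity, ?_⟩
  filter_upwards [hC, ball_mem_nhds (0 : Fin 2 → ℂ) one_pos] with x hx hx1
  have hx1' : ‖x‖ < 1 := mem_ball_zero_iff.1 hx1
  have h1 : C * ‖x‖ ^ (ν + 1) ≤ |C| * ‖x‖ ^ ν := by
    refine mul_le_mul (le_abs_self C) ?_ (by positivity) (abs_nonneg C)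
    exact pow_le_pow_of_le_one (norm_nonneg _) hx1'.le (Nat.le_succ ν)
  calc ‖u x‖ = ‖(u x - MvPolynomial.eval x P) + MvPolynomial.eval x P‖ := by rw [sub_add_cancel]
    _ ≤ ‖u x - MvPolynomial.eval x P‖ + ‖MvPolynomial.eval x P‖ := norm_add_le _ _
    _ ≤ |C| * ‖x‖ ^ ν + C' * ‖x‖ ^ ν := add_le_add (hx.trans h1) (hC' x)
    _ ≤ (C' + |C| + 1) * ‖x‖ ^ ν := by
        have : 0 ≤ ‖x‖ ^ ν := by positivity
        nlinarith

theorem Ord.mul {u v : (Fin 2 → ℂ) → ℂ} {ν ν' : ℕ} (h : Ord u ν) (h' : Ord v ν') :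
    Ord (fun x => u x * v x) (ν + ν') := by
  obtain ⟨C₁, hC₁, h1⟩ := h.upper
  obtain ⟨P, hP, hP0, C, hC⟩ := h
  obtain ⟨P', hP', hP0', C', hC'⟩ := h'
  obtain ⟨C₂, hC₂, h2⟩ := eval_hom_le hP'
  refine ⟨P * P', hP.mul hP', mul_ne_zero hP0 hP0', C₁ * |C'| + |C| * C₂, ?_⟩
  filter_upwards [hC, hC', h1] with x hx hx' hx1
  rw [map_mul]
  have e1 : u x * v x - MvPolynomial.eval x P * MvPolynomial.eval x P' =
      u x * (v x - MvPolynomial.eval x P') + (u x - MvPolynomial.eval x P) *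
        MvPolynomial.eval x P' := by ring
  rw [e1]
  refine (norm_add_le _ _).trans ?_
  rw [norm_mul, norm_mul, add_mul]
  refine add_le_add ?_ ?_
  · calc ‖u x‖ * ‖v x - MvPolynomial.eval x P'‖ ≤ (C₁ * ‖x‖ ^ ν) * (|C'| * ‖x‖ ^ (ν' + 1)) :=
          mul_le_mul hx1 (hx'.trans (mul_le_mul_of_nonneg_right (le_abs_self _) (by positivity)))
            (norm_nonneg _) (by positivity)
      _ = C₁ * |C'| * ‖x‖ ^ (ν + ν' + 1) := by ring
  · calc ‖u x - MvPolynomial.eval x P‖ * ‖MvPolynomial.eval x P'‖ ≤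
          (|C| * ‖x‖ ^ (ν + 1)) * (C₂ * ‖x‖ ^ ν') :=
          mul_le_mul (hx.trans (mul_le_mul_of_nonneg_right (le_abs_self _) (by positivity)))
            (h2 x) (norm_nonneg _) (by positivity)
      _ = |C| * C₂ * ‖x‖ ^ (ν + ν' + 1) := by ring

/-- The order in terms of the Taylor series. -/
theorem ord_of_T {u : AnFun 2} {ν : ℕ} (h : (H766.T 2 u).order = ν) :
    Ord (u : (Fin 2 → ℂ) → ℂ) ν := by
  obtain ⟨p, hp⟩ := H766.exists_poly (ν + 1) u
  set P := MvPolynomial.homogeneousComponent ν p with hPdef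
  have hP : P.IsHomogeneous ν := MvPolynomial.homogeneousComponent_isHomogeneous ν p
  have hcoeff : ∀ e : Fin 2 →₀ ℕ, e.degree = ν →
      MvPolynomial.coeff e P = MvPowerSeries.coeff e (H766.T 2 u) := by
    intro e he
    rw [hPdef, MvPolynomial.coeff_homogeneousComponent, if_pos he, H766.T_apply,
      H766.coeff_tay hp (by omega)]
  refine ⟨P, hP, ?_, ?_⟩
  · intro h0
    have hfin : ((H766.T 2 u).order.toNat : ℕ∞) = (H766.T 2 u).order := by rw [h]; rfl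
    obtain ⟨e, he, he'⟩ := MvPowerSeries.exists_coeff_ne_zero_and_order hfin
    rw [h] at he'
    have he'' : e.degree = ν := by exact_mod_cast he'
    apply he
    rw [← hcoeff e he'', h0, MvPolynomial.coeff_zero]
  · have h1 : u - H766.toAn 2 P ∈ qM 2 (ν + 1) := by
      apply H766.mem_qM_of_order
      refine MvPowerSeries.le_order fun e he => ?_
      have he' : e.degree < ν + 1 := by exact_mod_cast he
      rw [map_sub, map_sub, H766.T_toAn, MvPolynomial.coeff_coe]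
      by_cases h2 : e.degree = ν
      · rw [hcoeff e h2, sub_self]
      · rw [hP.coeff_eq_zero h2, sub_zero]
        refine MvPowerSeries.coeff_of_lt_order ?_
        rw [h]
        exact_mod_cast (by omega : e.degree < ν)
    obtain ⟨C, hC⟩ := qM_bound (ν + 1) _ h1
    refine ⟨C, ?_⟩
    filter_upwards [hC] with x hx
    have h3 : ((u - H766.toAn 2 P : AnFun 2) : (Fin 2 → ℂ) → ℂ) x =
        (u : (Fin 2 → ℂ) → ℂ) x - MvPolynomial.eval x P := by
      change (u : (Fin 2 → ℂ) → ℂ) x - ((H766.toAn 2 P : AnFun 2) : (Fin 2 → ℂ) → ℂ) x = _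
      rw [H766.toAn_apply]
    rw [h3] at hx
    exact hx

theorem eventually_zero_of_T {n : ℕ} {u : AnFun n} (h : H766.T n u = 0) :
    ∀ᶠ x in 𝓝 (0 : Fin n → ℂ), (u : (Fin n → ℂ) → ℂ) x = 0 := by
  have hbd : ∀ M : ℕ, ∃ C : ℝ, ∀ᶠ x in 𝓝 (0 : Fin n → ℂ),
      ‖(u : (Fin n → ℂ) → ℂ) x‖ ≤ C * ‖x‖ ^ M := by
    intro M
    refine qM_bound M u (H766.mem_qM_of_order ?_)
    rw [h, MvPowerSeries.order_zero]
    exact le_top
  have hu : AnalyticAt ℂ (u : (Fin n → ℂ) → ℂ) 0 := u.2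
  obtain ⟨ρ, hρ, Hρ⟩ := Metric.eventually_nhds_iff_ball.1 hu.eventually_analyticAt
  filter_upwards [ball_mem_nhds (0 : Fin n → ℂ) hρ] with x hx
  -- the line through `x`
  set φ : ℂ → ℂ := fun t => (u : (Fin n → ℂ) → ℂ) (t • x) with hφ
  have hφa : AnalyticAt ℂ φ 0 := by
    have h1 : AnalyticAt ℂ (u : (Fin n → ℂ) → ℂ) ((0 : ℂ) • x) := by rw [zero_smul]; exact hu
    exact AnalyticAt.comp (f := fun t : ℂ => t • x) h1 (analyticAt_id.smul analyticAt_const)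
  have h0 : ∀ᶠ t in 𝓝 (0 : ℂ), φ t = 0 := by
    by_contra hcon
    have h1 : analyticOrderAt φ 0 ≠ ⊤ := fun h2 => hcon (analyticOrderAt_eq_top.1 h2)
    obtain ⟨j, hj⟩ := ENat.ne_top_iff_exists.1 h1
    obtain ⟨g, hg, hg0, H⟩ := (hφa.analyticOrderAt_eq_natCast (n := j)).1 hj.symm
    obtain ⟨C, hC⟩ := hbd (j + 1)
    have hc : Tendsto (fun t : ℂ => t • x) (𝓝 0) (𝓝 0) := by
      have : Continuous (fun t : ℂ => t • x) := by fun_prop
      have := this.tendsto 0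
      rwa [zero_smul] at this
    have h3 : ∀ᶠ t in 𝓝[≠] (0 : ℂ), ‖g t‖ ≤ |C| * ‖x‖ ^ (j + 1) * ‖t‖ := by
      filter_upwards [nhdsWithin_le_nhds H, nhdsWithin_le_nhds (hc.eventually hC),
        self_mem_nhdsWithin] with t ht htC ht0
      have ht0' : 0 < ‖t‖ := norm_pos_iff.2 ht0
      have h4 : ‖φ t‖ = ‖t‖ ^ j * ‖g t‖ := by
        rw [ht, sub_zero, smul_eq_mul, norm_mul, norm_pow]
      have h5 : ‖t‖ ^ j * ‖g t‖ ≤ ‖t‖ ^ j * (|C| * ‖x‖ ^ (j + 1) * ‖t‖) := by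
        rw [← h4]
        refine htC.trans ?_
        rw [norm_smul, mul_pow]
        calc C * (‖t‖ ^ (j + 1) * ‖x‖ ^ (j + 1)) ≤ |C| * (‖t‖ ^ (j + 1) * ‖x‖ ^ (j + 1)) :=
              mul_le_mul_of_nonneg_right (le_abs_self _) (by positivity)
          _ = _ := by ring
      exact le_of_mul_le_mul_left h5 (pow_pos ht0' j)
    have h6 : Tendsto (fun t : ℂ => ‖g t‖) (𝓝[≠] 0) (𝓝 ‖g 0‖) :=
      (hg.continuousAt.norm.tendsto).mono_left nhdsWithin_le_nhds
    have h7 : Tendsto (fun t : ℂ => |C| * ‖x‖ ^ (j + 1) * ‖t‖) (𝓝[≠] 0) (𝓝 0) := by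
      have h8 : Continuous (fun t : ℂ => |C| * ‖x‖ ^ (j + 1) * ‖t‖) := by fun_prop
      have h9 := h8.tendsto 0
      rw [norm_zero, mul_zero] at h9
      exact h9.mono_left nhdsWithin_le_nhds
    exact hg0 (norm_le_zero_iff.1 (le_of_tendsto_of_tendsto h6 h7 h3))
  have hconv : Convex ℝ ((fun t : ℂ => t • x) ⁻¹' ball (0 : Fin n → ℂ) ρ) := by
    have : IsLinearMap ℝ (fun t : ℂ => t • x) :=
      ⟨fun a b => add_smul a b x, fun c a => smul_assoc c a x⟩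
    exact (convex_ball (0 : Fin n → ℂ) ρ).is_linear_preimage this
  have han : AnalyticOnNhd ℂ φ ((fun t : ℂ => t • x) ⁻¹' ball (0 : Fin n → ℂ) ρ) := by
    intro t ht
    exact AnalyticAt.comp (f := fun t : ℂ => t • x) (Hρ _ ht)
      (analyticAt_id.smul analyticAt_const)
  have h2 := han.eqOn_zero_of_preconnected_of_eventuallyEq_zero hconv.isPreconnected
    (z₀ := 0) (by simpa using hρ) h0
  have h3 := h2 (x := 1) (by
    change (1 : ℂ) • x ∈ ball (0 : Fin n → ℂ) ρ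
    rw [one_smul]; exact hx)
  simpa [hφ] using h3

/-- every germ which is not zero has an order -/
theorem exists_ord {u : (Fin 2 → ℂ) → ℂ} (hu : Hol u) (h : ¬ ∀ᶠ x in 𝓝 (0 : Fin 2 → ℂ), u x = 0) :
    ∃ ν, Ord u ν := by
  have h1 : H766.T 2 ⟨u, hu⟩ ≠ 0 := fun h0 => h (eventually_zero_of_T h0)
  rw [MvPowerSeries.ne_zero_iff_order_finite] at h1
  exact ⟨_, ord_of_T (u := ⟨u, hu⟩) h1.symm⟩

/-- the order of a polynomial is at most its degree -/
theorem exists_ord_poly {p : MvPolynomial (Fin 2) ℂ} (hp : p ≠ 0) {N : ℕ}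
    (hN : ∀ e ∈ p.support, e.degree < N) :
    ∃ ν, ν < N ∧ Ord (fun x => MvPolynomial.eval x p) ν := by
  have h1 : H766.T 2 (H766.toAn 2 p) ≠ 0 := by
    rw [H766.T_toAn]
    intro h0
    exact hp (MvPolynomial.coe_eq_zero_iff.1 h0)
  obtain ⟨e, he⟩ : ∃ e, e ∈ p.support := MvPolynomial.support_nonempty.2 hp
  have h2 : (H766.T 2 (H766.toAn 2 p)).order ≤ e.degree := by
    rw [H766.T_toAn]
    refine MvPowerSeries.order_le ?_
    rw [MvPolynomial.coeff_coe]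
    exact MvPolynomial.mem_support_iff.1 he
  rw [MvPowerSeries.ne_zero_iff_order_finite] at h1
  refine ⟨(H766.T 2 (H766.toAn 2 p)).order.toNat, ?_, ?_⟩
  · rw [← h1] at h2
    have h3 : (H766.T 2 (H766.toAn 2 p)).order.toNat ≤ e.degree := by exact_mod_cast h2
    exact h3.trans_lt (hN e he)
  · have h3 := ord_of_T (u := H766.toAn 2 p) h1.symm
    have h4 : ((H766.toAn 2 p : AnFun 2) : (Fin 2 → ℂ) → ℂ) = fun x => MvPolynomial.eval x p := by
      funext x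
      exact H766.toAn_apply p x
    rwa [h4] at h3

end Vale.Agent.P298.H714
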