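import Vale.Agent.P298.H714.Frm

/-!
P298, row E1-LOW (helper714), part 7: Taylor series in one variable and composition with a germ.
-/

namespace Vale.Agent.P298.H714

open Filter Topology Metric Vale.Agent.P298 Module
open Vale.Agent.P298.H766 (ser serIdeal ser_mul ser_add ser_sub ser_const ser_congr ser_sum
  constantCoeff_ser colength_iff_ser)
open _root_.P298.H824 (zhom zhom_X mem_of_forall_mem_sup_pow span_eq_top_of_separated zhom_finite)

variable {n d : ℕ}

/-- the Taylor series at `0` of a function of one variable -/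
noncomputable def ser1 (h : ℂ → ℂ) : PowerSeries ℂ :=
  PowerSeries.mk fun i => ((fun g : ℂ → ℂ => dslope g 0)^[i] h) 0

theorem coeff_zero_ser1 (h : ℂ → ℂ) : PowerSeries.coeff 0 (ser1 h) = h 0 := by
  rw [ser1, PowerSeries.coeff_mk]; rfl

theorem coeff_succ_ser1 (h : ℂ → ℂ) (i : ℕ) :
    PowerSeries.coeff (i + 1) (ser1 h) = PowerSeries.coeff i (ser1 (dslope h 0)) := by
  rw [ser1, PowerSeries.coeff_mk, ser1, PowerSeries.coeff_mk, Function.iterate_succ_apply]

theorem ser1_eq (h : ℂ → ℂ) :
    ser1 h = PowerSeries.C (h 0) + PowerSeries.X * ser1 (dslope h 0) := by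
  ext i
  cases i with
  | zero => rw [coeff_zero_ser1]; simp
  | succ i => rw [coeff_succ_ser1, map_add, PowerSeries.coeff_succ_X_mul, PowerSeries.coeff_C,
      if_neg (Nat.succ_ne_zero i), zero_add]

theorem analyticAt_dslope {h : ℂ → ℂ} (hh : AnalyticAt ℂ h 0) : AnalyticAt ℂ (dslope h 0) 0 := by
  obtain ⟨p, hp⟩ := hh
  exact hp.has_fpower_series_dslope_fslope.analyticAt

theorem dslope_congr {h g : ℂ → ℂ} (H : h =ᶠ[𝓝 0] g) : dslope h 0 =ᶠ[𝓝 0] dslope g 0 := by
  have h0 : h 0 = g 0 := H.self_of_nhds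
  filter_upwards [H] with t ht
  by_cases h1 : t = 0
  · subst h1
    rw [dslope_same, dslope_same, H.deriv_eq]
  · rw [dslope_of_ne _ h1, dslope_of_ne _ h1, slope_def_field, slope_def_field, ht, h0]

theorem ser1_congr {h g : ℂ → ℂ} (H : h =ᶠ[𝓝 0] g) : ser1 h = ser1 g := by
  have key : ∀ (i : ℕ) (h g : ℂ → ℂ), h =ᶠ[𝓝 0] g →
      PowerSeries.coeff i (ser1 h) = PowerSeries.coeff i (ser1 g) := by
    intro i
    induction i with
    | zero => intro h g H; rw [coeff_zero_ser1, coeff_zero_ser1, H.self_of_nhds]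
    | succ i ih => intro h g H; rw [coeff_succ_ser1, coeff_succ_ser1]; exact ih _ _ (dslope_congr H)
  ext i
  exact key i h g H

theorem dslope_add' {h g : ℂ → ℂ} (hh : AnalyticAt ℂ h 0) (hg : AnalyticAt ℂ g 0) :
    dslope (h + g) 0 = dslope h 0 + dslope g 0 := by
  funext t
  by_cases h1 : t = 0
  · subst h1
    rw [dslope_same, Pi.add_apply, dslope_same, dslope_same,
      deriv_add hh.differentiableAt hg.differentiableAt]
  · rw [Pi.add_apply, dslope_of_ne _ h1, dslope_of_ne _ h1, dslope_of_ne _ h1, slope_def_field,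
      slope_def_field, slope_def_field, Pi.add_apply, Pi.add_apply]
    ring

theorem dslope_mul' {h g : ℂ → ℂ} (hh : AnalyticAt ℂ h 0) (hg : AnalyticAt ℂ g 0) :
    dslope (h * g) 0 = (fun _ => h 0) * dslope g 0 + dslope h 0 * g := by
  funext t
  by_cases h1 : t = 0
  · subst h1
    simp only [Pi.add_apply, Pi.mul_apply]
    rw [dslope_same, dslope_same, dslope_same, deriv_mul hh.differentiableAt hg.differentiableAt]
    ring
  · simp only [Pi.add_apply, Pi.mul_apply]
    rw [dslope_of_ne _ h1, dslope_of_ne _ h1, dslope_of_ne _ h1, slope_def_field,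
      slope_def_field, slope_def_field, Pi.mul_apply, Pi.mul_apply]
    ring

theorem ser1_add {h g : ℂ → ℂ} (hh : AnalyticAt ℂ h 0) (hg : AnalyticAt ℂ g 0) :
    ser1 (h + g) = ser1 h + ser1 g := by
  have key : ∀ (i : ℕ) (h g : ℂ → ℂ), AnalyticAt ℂ h 0 → AnalyticAt ℂ g 0 →
      PowerSeries.coeff i (ser1 (h + g)) = PowerSeries.coeff i (ser1 h + ser1 g) := by
    intro i
    induction i with
    | zero => intro h g _ _; rw [map_add, coeff_zero_ser1, coeff_zero_ser1, coeff_zero_ser1]; rfl
    | succ i ih =>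
      intro h g hh hg
      rw [map_add, coeff_succ_ser1, coeff_succ_ser1, coeff_succ_ser1, dslope_add' hh hg,
        ih _ _ (analyticAt_dslope hh) (analyticAt_dslope hg), map_add]
  ext i
  exact key i h g hh hg

theorem ser1_const (c : ℂ) : ser1 (fun _ => c) = PowerSeries.C c := by
  have h0 : dslope (fun _ : ℂ => c) 0 = fun _ => 0 := by
    funext t
    by_cases h1 : t = 0
    · subst h1; rw [dslope_same]; simp
    · rw [dslope_of_ne _ h1, slope_def_field]; simp
  have hz : ∀ i, PowerSeries.coeff i (ser1 fun _ => 0) = 0 := by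
    have h0 : dslope (fun _ : ℂ => (0 : ℂ)) 0 = fun _ => 0 := by
      funext t
      by_cases h1 : t = 0
      · subst h1; rw [dslope_same]; simp
      · rw [dslope_of_ne _ h1, slope_def_field]; simp
    intro i
    induction i with
    | zero => rw [coeff_zero_ser1]
    | succ i ih => rw [coeff_succ_ser1, h0, ih]
  rw [ser1_eq, h0]
  have : ser1 (fun _ => 0) = 0 := by ext i; rw [hz]; simp
  rw [this, mul_zero, add_zero]

theorem ser1_mul {h g : ℂ → ℂ} (hh : AnalyticAt ℂ h 0) (hg : AnalyticAt ℂ g 0) :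
    ser1 (h * g) = ser1 h * ser1 g := by
  have key : ∀ (i : ℕ) (h g : ℂ → ℂ), AnalyticAt ℂ h 0 → AnalyticAt ℂ g 0 →
      PowerSeries.coeff i (ser1 (h * g)) = PowerSeries.coeff i (ser1 h * ser1 g) := by
    intro i
    induction i with
    | zero =>
      intro h g _ _
      rw [coeff_zero_ser1, PowerSeries.coeff_zero_eq_constantCoeff_apply, map_mul,
        ← PowerSeries.coeff_zero_eq_constantCoeff_apply,
        ← PowerSeries.coeff_zero_eq_constantCoeff_apply, coeff_zero_ser1, coeff_zero_ser1]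
      rfl
    | succ i ih =>
      intro h g hh hg
      have h1 := analyticAt_dslope hh
      have h2 := analyticAt_dslope hg
      have hc : AnalyticAt ℂ (fun _ : ℂ => h 0) 0 := analyticAt_const
      rw [coeff_succ_ser1, dslope_mul' hh hg, ser1_add (hc.mul h2) (h1.mul hg), map_add,
        ih _ _ hc h2, ih _ _ h1 hg, ser1_const]
      have h3 : ser1 h * ser1 g = PowerSeries.C (h 0) * PowerSeries.C (g 0) +
          PowerSeries.X * (PowerSeries.C (h 0) * ser1 (dslope g 0) + ser1 (dslope h 0) * ser1 g) := by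
        rw [ser1_eq h, ser1_eq g]
        ring
      rw [h3, ← map_mul, map_add, PowerSeries.coeff_C, if_neg (Nat.succ_ne_zero i), zero_add,
        PowerSeries.coeff_succ_X_mul, map_add]
  ext i
  exact key i h g hh hg

/-- functions of one variable, analytic at `0` -/
def An1 : Subring (ℂ → ℂ) where
  carrier := {h | AnalyticAt ℂ h 0}
  mul_mem' := fun ha hb => ha.mul hb
  one_mem' := analyticAt_const
  add_mem' := fun ha hb => ha.add hb
  zero_mem' := analyticAt_const
  neg_mem' := fun ha => ha.neg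

/-- the Taylor series as a homomorphism -/
noncomputable def ser1Hom : An1 →+* PowerSeries ℂ where
  toFun h := ser1 h
  map_one' := by
    change ser1 (fun _ => 1) = 1
    rw [ser1_const, map_one]
  map_mul' := fun a b => ser1_mul a.2 b.2
  map_zero' := by
    change ser1 (fun _ => 0) = 0
    rw [ser1_const, map_zero]
  map_add' := fun a b => ser1_add a.2 b.2

theorem ser1_det {h : Matrix (Fin d) (Fin d) (ℂ → ℂ)} (hh : ∀ i j, AnalyticAt ℂ (h i j) 0) :
    (Matrix.of fun i j => ser1 (h i j)).det =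
      ser1 (fun t => (Matrix.of fun i j => h i j t).det) := by
  let m : Matrix (Fin d) (Fin d) An1 := Matrix.of fun i j => ⟨h i j, hh i j⟩
  have h1 := ser1Hom.map_det m
  have h2 : ser1Hom.mapMatrix m = Matrix.of fun i j => ser1 (h i j) := by
    ext1 i j
    rfl
  rw [← h2, ← h1]
  change ser1 (m.det : ℂ → ℂ) = _
  congr 1
  funext t
  let evt : An1 →+* ℂ := (Pi.evalRingHom (fun _ : ℂ => ℂ) t).comp An1.subtype
  have h3 := evt.map_det m
  change (m.det : ℂ → ℂ) t = _ at h3
  rw [h3]
  rfl

theorem order_ser1 {h u : ℂ → ℂ} {j : ℕ} (hu : AnalyticAt ℂ u 0) (hu0 : u 0 ≠ 0)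
    (H : ∀ᶠ t in 𝓝 (0 : ℂ), h t = t ^ j * u t) : (ser1 h).order = j := by
  have hid : AnalyticAt ℂ (fun t : ℂ => t) 0 := analyticAt_id
  have h1 : ser1 (fun t : ℂ => t) = PowerSeries.X := by
    rw [ser1_eq]
    have h0 : dslope (fun t : ℂ => t) 0 = fun _ => 1 := by
      funext t
      by_cases h1 : t = 0
      · subst h1; rw [dslope_same]; simp
      · rw [dslope_of_ne _ h1, slope_def_field]; simp [h1]
    rw [h0, ser1_const]
    simp
  have h2 : ∀ j : ℕ, AnalyticAt ℂ (fun t : ℂ => t ^ j) 0 ∧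
      ser1 (fun t : ℂ => t ^ j) = PowerSeries.X ^ j := by
    intro j
    induction j with
    | zero =>
      refine ⟨by simpa using analyticAt_const, ?_⟩
      simp only [pow_zero]
      rw [ser1_const, map_one]
    | succ j ih =>
      have h3 : (fun t : ℂ => t ^ (j + 1)) = (fun t : ℂ => t ^ j) * (fun t : ℂ => t) := by
        funext t; simp [pow_succ]
      rw [h3]
      exact ⟨ih.1.mul hid, by rw [ser1_mul ih.1 hid, ih.2, h1, pow_succ]⟩
  have h3 : ser1 h = PowerSeries.X ^ j * ser1 u := by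
    rw [← (h2 j).2, ← ser1_mul (h2 j).1 hu]
    exact ser1_congr H
  rw [h3, PowerSeries.order_mul, PowerSeries.order_X_pow]
  have h4 : (ser1 u).order = 0 := by
    have h5 : PowerSeries.coeff 0 (ser1 u) ≠ 0 := by rwa [coeff_zero_ser1]
    have h6 := PowerSeries.order_le 0 h5
    simpa using h6
  rw [h4, add_zero]

theorem hol_comp1 {h : ℂ → ℂ} (hh : AnalyticAt ℂ h 0) {l : (Fin n → ℂ) → ℂ} (hl : Hol l)
    (hl0 : l 0 = 0) : Hol (fun x => h (l x)) := by
  have h1 : AnalyticAt ℂ h (l 0) := by rwa [hl0]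
  exact AnalyticAt.comp h1 hl

/-- composition with a germ -/
theorem zhom_ser1 (I : Ideal (MvPowerSeries (Fin n) ℂ)) {l : (Fin n → ℂ) → ℂ} (hl : Hol l)
    (hl0 : l 0 = 0) (hz : MvPowerSeries.constantCoeff (ser l) = 0) {h : ℂ → ℂ}
    (hh : AnalyticAt ℂ h 0) :
    Ideal.Quotient.mk I (ser (fun x => h (l x))) = zhom I (ser l) hz (ser1 h) := by
  have key : ∀ (k : ℕ) (h : ℂ → ℂ), AnalyticAt ℂ h 0 → ∃ w,
      Ideal.Quotient.mk I (ser (fun x => h (l x))) =
        zhom I (ser l) hz (ser1 h) + Ideal.Quotient.mk I (ser l ^ k * w) := by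
    intro k
    induction k with
    | zero =>
      intro h hh
      obtain ⟨w, hw⟩ := Ideal.Quotient.mk_surjective
        (Ideal.Quotient.mk I (ser (fun x => h (l x))) - zhom I (ser l) hz (ser1 h))
      exact ⟨w, by rw [pow_zero, one_mul, hw]; ring⟩
    | succ k ih =>
      intro h hh
      obtain ⟨w, hw⟩ := ih _ (analyticAt_dslope hh)
      refine ⟨w, ?_⟩
      have h1 : (fun x => h (l x)) = fun x => h 0 + l x * dslope h 0 (l x) := by
        funext x
        have := sub_smul_dslope h 0 (l x)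
        rw [smul_eq_mul, sub_zero] at this
        rw [this]; ring
      have h2 := hol_comp1 (analyticAt_dslope hh) hl hl0
      have h3 : Hol (fun x => l x * dslope h 0 (l x)) := AnalyticAt.mul hl h2
      rw [h1, ser_add (u := fun _ => h 0) (v := fun x => l x * dslope h 0 (l x))
        analyticAt_const h3, ser_const, ser_mul (v := fun x => dslope h 0 (l x)) hl h2, map_add,
        map_mul, hw, ser1_eq h, map_add, map_mul (zhom I (ser l) hz), zhom_X, zhom_C, pow_succ]
      simp only [map_mul]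
      ring
  obtain ⟨s, hs⟩ := Ideal.Quotient.mk_surjective (zhom I (ser l) hz (ser1 h))
  rw [← hs, Ideal.Quotient.eq]
  apply mem_of_forall_mem_sup_pow I (ser l) hz
  intro k
  obtain ⟨w, hw⟩ := key k h hh
  rw [← hs, ← map_add, Ideal.Quotient.eq] at hw
  have h1 : ser (fun x => h (l x)) - s =
      (ser (fun x => h (l x)) - (s + ser l ^ k * w)) + w * ser l ^ k := by ring
  rw [h1]
  exact Submodule.add_mem_sup hw (Ideal.mul_mem_left _ _ (Ideal.mem_span_singleton_self _))

end Vale.Agent.P298.H714
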