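import Vale.Agent.P298.Bdl.B1

/-!
P298, row E1-LOW (helper714), part 1: bounded holomorphic functions on polydiscs and division by
an ideal of finite colength with bounds.
-/

namespace Vale.Agent.P298.H714

open Filter Topology Metric Set Vale.Agent.P298 Module

variable {n k d : ℕ}

/-- holomorphic on the polydisc of radius `r`, bounded by `M` there -/
def Bh (r M : ℝ) (g : (Fin n → ℂ) → ℂ) : Prop :=
  DifferentiableOn ℂ g (ball 0 r) ∧ ∀ x ∈ ball (0 : Fin n → ℂ) r, ‖g x‖ ≤ M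

namespace Bh

variable {r M M' : ℝ} {g g' : (Fin n → ℂ) → ℂ}

theorem mono (h : Bh r M g) (hM : M ≤ M') : Bh r M' g := ⟨h.1, fun x hx => (h.2 x hx).trans hM⟩

theorem anti {r' : ℝ} (h : Bh r M g) (hr : r' ≤ r) : Bh r' M g :=
  ⟨h.1.mono (ball_subset_ball hr), fun x hx => h.2 x (ball_subset_ball hr hx)⟩

theorem nonneg (h : Bh r M g) (hr : 0 < r) : 0 ≤ M :=
  (norm_nonneg _).trans (h.2 0 (mem_ball_self hr))

theorem congr (h : Bh r M g) (hg : ∀ x ∈ ball (0 : Fin n → ℂ) r, g' x = g x) : Bh r M g' :=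
  ⟨h.1.congr hg, fun x hx => by rw [hg x hx]; exact h.2 x hx⟩

theorem add (h : Bh r M g) (h' : Bh r M' g') : Bh r (M + M') (fun x => g x + g' x) :=
  ⟨h.1.add h'.1, fun x hx => (norm_add_le _ _).trans (add_le_add (h.2 x hx) (h'.2 x hx))⟩

theorem neg (h : Bh r M g) : Bh r M (fun x => -g x) :=
  ⟨h.1.neg, fun x hx => by rw [norm_neg]; exact h.2 x hx⟩

theorem sub (h : Bh r M g) (h' : Bh r M' g') : Bh r (M + M') (fun x => g x - g' x) := by
  simpa only [sub_eq_add_neg] using h.add h'.neg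

theorem mul (h : Bh r M g) (h' : Bh r M' g') : Bh r (M * M') (fun x => g x * g' x) :=
  ⟨h.1.mul h'.1, fun x hx => by
    rw [norm_mul]
    exact mul_le_mul (h.2 x hx) (h'.2 x hx) (norm_nonneg _) ((norm_nonneg _).trans (h.2 x hx))⟩

theorem const (c : ℂ) : Bh (n := n) r ‖c‖ (fun _ => c) :=
  ⟨differentiableOn_const c, fun _ _ => le_rfl⟩

theorem cmul (c : ℂ) (h : Bh r M g) : Bh r (‖c‖ * M) (fun x => c * g x) := (const c).mul h

theorem sum {ι : Type*} (t : Finset ι) {M : ι → ℝ} {g : ι → (Fin n → ℂ) → ℂ}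
    (h : ∀ i ∈ t, Bh r (M i) (g i)) : Bh r (∑ i ∈ t, M i) (fun x => ∑ i ∈ t, g i x) := by
  refine ⟨?_, fun x hx => ?_⟩
  · exact DifferentiableOn.fun_sum fun i hi => (h i hi).1
  · exact (norm_sum_le _ _).trans (Finset.sum_le_sum fun i hi => (h i hi).2 x hx)

theorem coord (_hr : 0 < r) (i : Fin n) : Bh r r (fun x : Fin n → ℂ => x i) := by
  refine ⟨(differentiable_apply i).differentiableOn, fun x hx => ?_⟩
  rw [mem_ball_zero_iff] at hx
  exact (norm_le_pi_norm x i).trans hx.le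

theorem pow (h : Bh r M g) (m : ℕ) : Bh r (M ^ m) (fun x => g x ^ m) := by
  induction m with
  | zero => simpa using const (n := n) (r := r) (1 : ℂ)
  | succ m ih => simpa only [pow_succ] using ih.mul h

theorem prod {ι : Type*} (t : Finset ι) {M : ι → ℝ} {g : ι → (Fin n → ℂ) → ℂ}
    (h : ∀ i ∈ t, Bh r (M i) (g i)) : Bh r (∏ i ∈ t, M i) (fun x => ∏ i ∈ t, g i x) := by
  classical
  induction t using Finset.induction_on with
  | empty => simpa using const (n := n) (r := r) (1 : ℂ)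
  | insert a s ha ih =>
    simp only [Finset.prod_insert ha]
    exact (h a (Finset.mem_insert_self _ _)).mul
      (ih fun i hi => h i (Finset.mem_insert_of_mem hi))

end Bh

theorem hol_bh {h : (Fin n → ℂ) → ℂ} (hh : Hol h) : ∃ ρ > 0, ∃ M, Bh ρ M h := by
  have h1 : ∀ᶠ x in 𝓝 (0 : Fin n → ℂ), ‖h x‖ < ‖h 0‖ + 1 :=
    (AnalyticAt.continuousAt hh).norm.eventually (gt_mem_nhds (lt_add_one _))
  have h2 : ∀ᶠ x in 𝓝 (0 : Fin n → ℂ), AnalyticAt ℂ h x := AnalyticAt.eventually_analyticAt hh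
  obtain ⟨ρ, hρ, H⟩ := Metric.eventually_nhds_iff_ball.1 (h1.and h2)
  exact ⟨ρ, hρ, ‖h 0‖ + 1, fun x hx => (H x hx).2.differentiableAt.differentiableWithinAt,
    fun x hx => (H x hx).1.le⟩

/-- the Hadamard (Gleason) lemma with bounds on a polydisc -/
def HadP (n : ℕ) : Prop :=
  ∀ (r M : ℝ) (x : Fin n → ℂ) (g : (Fin n → ℂ) → ℂ), 0 < r → x ∈ ball (0 : Fin n → ℂ) r →
    Bh r M g → ∃ a : Fin n → (Fin n → ℂ) → ℂ, (∀ i, Bh r (2 * M / (r - ‖x‖)) (a i)) ∧
      ∀ z ∈ ball (0 : Fin n → ℂ) r, g z = g x + ∑ i, (z i - x i) * a i z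

/-- Division data on the polydisc of radius `r`. -/
structure Spl (s : Fin k → (Fin n → ℂ) → ℂ) (b : Fin d → (Fin n → ℂ) → ℂ) (r K : ℝ) : Prop where
  hr : 0 < r
  hK : 0 ≤ K
  bs : ∀ j, Bh r K (s j)
  bb : ∀ l, Bh r K (b l)
  split : ∀ (g : (Fin n → ℂ) → ℂ) (M : ℝ), Bh r M g →
    ∃ (c : Fin d → ℂ) (a : Fin k → (Fin n → ℂ) → ℂ), (∀ l, ‖c l‖ ≤ K * M) ∧
      (∀ j, Bh r (K * M) (a j)) ∧
      ∀ x ∈ ball (0 : Fin n → ℂ) r, g x = ∑ l, c l * b l x + ∑ j, s j x * a j x
  pw : ∃ L : ℕ, ∀ i : Fin n, ∃ α : Fin k → (Fin n → ℂ) → ℂ, (∀ j, Bh r K (α j)) ∧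
    ∀ x ∈ ball (0 : Fin n → ℂ) r, x i ^ L = ∑ j, s j x * α j x

/-- the statement proved by induction over monomials -/
def SP (s : Fin k → (Fin n → ℂ) → ℂ) (b : Fin d → (Fin n → ℂ) → ℂ) (r : ℝ) (β : Fin n → ℕ) :
    Prop :=
  ∃ K : ℝ, 0 ≤ K ∧ ∀ (g : (Fin n → ℂ) → ℂ) (M : ℝ), Bh r M g →
    ∃ (c : Fin d → ℂ) (a : Fin k → (Fin n → ℂ) → ℂ), (∀ l, ‖c l‖ ≤ K * M) ∧
      (∀ j, Bh r (K * M) (a j)) ∧
      ∀ x ∈ ball (0 : Fin n → ℂ) r,
        (∏ i, x i ^ β i) * g x = ∑ l, c l * b l x + ∑ j, s j x * a j x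

theorem sp_all (had : HadP n) (hn : 0 < n) {s : Fin k → (Fin n → ℂ) → ℂ}
    {b : Fin d → (Fin n → ℂ) → ℂ} {r K0 : ℝ} (hr : 0 < r) (hK0 : 0 ≤ K0) (L : ℕ)
    (R1 : ∀ i : Fin n, ∃ α : Fin k → (Fin n → ℂ) → ℂ, (∀ j, Bh r K0 (α j)) ∧
      ∀ x ∈ ball (0 : Fin n → ℂ) r, x i ^ L = ∑ j, s j x * α j x)
    (R2 : ∀ β : Fin n → ℕ, (∀ i, β i < L) → ∃ (c : Fin d → ℂ) (a : Fin k → (Fin n → ℂ) → ℂ),
      (∀ l, ‖c l‖ ≤ K0) ∧ (∀ j, Bh r K0 (a j)) ∧
      ∀ x ∈ ball (0 : Fin n → ℂ) r, ∏ i, x i ^ β i = ∑ l, c l * b l x + ∑ j, s j x * a j x) :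
    ∀ (m : ℕ) (β : Fin n → ℕ), n * L ≤ ∑ i, β i + m → SP s b r β := by
  have base : ∀ (β : Fin n → ℕ) (i : Fin n), L ≤ β i → SP s b r β := by
    intro β i hi
    obtain ⟨α, hα, hα'⟩ := R1 i
    set β' := Function.update β i (β i - L) with hβ'
    have hmon : Bh r (∏ j : Fin n, r ^ β' j) (fun x : Fin n → ℂ => ∏ j, x j ^ β' j) :=
      Bh.prod Finset.univ fun j _ => (Bh.coord hr j).pow _
    set R := ∏ j : Fin n, r ^ β' j
    have hR : 0 ≤ R := hmon.nonneg hr
    refine ⟨K0 * R, by positivity, fun g M hg => ?_⟩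
    have hM := hg.nonneg hr
    refine ⟨0, fun j x => α j x * (∏ j, x j ^ β' j) * g x, fun l => ?_, fun j => ?_,
      fun x hx => ?_⟩
    · simp only [Pi.zero_apply, norm_zero]; positivity
    · exact ((hα j).mul hmon).mul hg
    · have h1 : ∏ j, x j ^ β j = x i ^ L * ∏ j, x j ^ β' j := by
        have h2 : ∀ j, x j ^ β j = (if j = i then x i ^ L else 1) * x j ^ β' j := by
          intro j
          by_cases hj : j = i
          · subst hj
            rw [if_pos rfl, hβ', Function.update_self, ← pow_add, Nat.add_sub_cancel' hi]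
          · rw [if_neg hj, hβ', Function.update_of_ne hj, one_mul]
        rw [Finset.prod_congr rfl fun j _ => h2 j, Finset.prod_mul_distrib]
        simp
      rw [h1, hα' x hx, Finset.sum_mul, Finset.sum_mul]
      simp only [Pi.zero_apply, zero_mul, Finset.sum_const_zero, zero_add]
      refine Finset.sum_congr rfl fun j _ => ?_
      ring
  intro m
  induction m with
  | zero =>
    intro β hβ
    by_cases h : ∃ i, L ≤ β i
    · obtain ⟨i, hi⟩ := h
      exact base β i hi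
    · push Not at h
      exfalso
      have hne : (Finset.univ : Finset (Fin n)).Nonempty := ⟨⟨0, hn⟩, Finset.mem_univ _⟩
      have h1 : ∑ i, β i < ∑ _i : Fin n, L := Finset.sum_lt_sum_of_nonempty hne fun i _ => h i
      simp at h1
      omega
  | succ m ih =>
    intro β hβ
    by_cases h : ∃ i, L ≤ β i
    · obtain ⟨i, hi⟩ := h
      exact base β i hi
    push Not at h
    obtain ⟨c0, a0, hc0, ha0, h0⟩ := R2 β h
    have hstep : ∀ i, SP s b r (Function.update β i (β i + 1)) := by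
      intro i
      refine ih _ ?_
      rw [Finset.sum_update_of_mem (Finset.mem_univ i)]
      have h1 := Finset.add_sum_erase Finset.univ β (Finset.mem_univ i)
      rw [Finset.sdiff_singleton_eq_erase]
      omega
    choose K hK HK using hstep
    refine ⟨K0 + ∑ i, K i * (2 / r), by
      have : ∀ i, 0 ≤ K i * (2 / r) := fun i => mul_nonneg (hK i) (by positivity)
      exact add_nonneg hK0 (Finset.sum_nonneg fun i _ => this i), fun g M hg => ?_⟩
    have hM := hg.nonneg hr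
    obtain ⟨G, hG, hG'⟩ := had r M 0 g hr (mem_ball_self hr) hg
    rw [norm_zero, sub_zero] at hG
    have hstep2 := fun i => HK i (G i) (2 * M / r) (hG i)
    choose c a hc ha hca using hstep2
    refine ⟨fun l => g 0 * c0 l + ∑ i, c i l, fun j x => g 0 * a0 j x + ∑ i, a i j x,
      fun l => ?_, fun j => ?_, fun x hx => ?_⟩
    · refine (norm_add_le _ _).trans ?_
      rw [add_mul, Finset.sum_mul]
      refine add_le_add ?_ ((norm_sum_le _ _).trans (Finset.sum_le_sum fun i _ => ?_))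
      · rw [norm_mul, mul_comm]
        exact mul_le_mul (hc0 l) (hg.2 0 (mem_ball_self hr)) (norm_nonneg _) hK0
      · refine (hc i l).trans_eq ?_
        ring
    · rw [add_mul, Finset.sum_mul]
      refine Bh.add ?_ (Bh.sum Finset.univ fun i _ => ?_)
      · refine ((ha0 j).cmul (g 0)).mono ?_
        rw [mul_comm]
        exact mul_le_mul_of_nonneg_left (hg.2 0 (mem_ball_self hr)) hK0
      · refine (ha i j).mono (le_of_eq ?_)
        ring
    · have h2 : ∀ i, (∏ j, x j ^ Function.update β i (β i + 1) j) =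
          x i * ∏ j, x j ^ β j := by
        intro i
        have h3 : ∀ j, x j ^ Function.update β i (β i + 1) j =
            (if j = i then x i else 1) * x j ^ β j := by
          intro j
          by_cases hj : j = i
          · subst hj
            rw [if_pos rfl, Function.update_self, pow_succ, mul_comm]
          · rw [if_neg hj, Function.update_of_ne hj, one_mul]
        rw [Finset.prod_congr rfl fun j _ => h3 j, Finset.prod_mul_distrib]
        simp
      have h4 : (∏ i, x i ^ β i) * g x = g 0 * ∏ i, x i ^ β i +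
          ∑ i, (∏ j, x j ^ Function.update β i (β i + 1) j) * G i x := by
        rw [hG' x hx, mul_add, Finset.mul_sum, mul_comm (g 0)]
        congr 1
        refine Finset.sum_congr rfl fun i _ => ?_
        rw [h2 i]
        simp only [Pi.zero_apply, sub_zero]
        ring
      rw [h4, h0 x hx, Finset.sum_congr rfl fun i _ => hca i x hx, Finset.sum_add_distrib]
      simp only [mul_add, add_mul, Finset.mul_sum, Finset.sum_mul, Finset.sum_add_distrib]
      rw [Finset.sum_comm (s := (Finset.univ : Finset (Fin n))) (t := (Finset.univ : Finset (Fin d))),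
        Finset.sum_comm (s := (Finset.univ : Finset (Fin n))) (t := (Finset.univ : Finset (Fin k)))]
      have h5 : ∀ l, g 0 * (c0 l * b l x) = g 0 * c0 l * b l x := fun l => by ring
      have h6 : ∀ j, g 0 * (s j x * a0 j x) = s j x * (g 0 * a0 j x) := fun j => by ring
      simp only [h5, h6]
      ring

end Vale.Agent.P298.H714
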