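import Vale.Agent.P298.H714.Ser1

/-!
P298, row E1-LOW (helper714), part 8: uniqueness of the coefficients in
`g(x) = ∑ H_l(s(x)) b_l(x)` for a system of parameters `s`.
-/

namespace Vale.Agent.P298.H714

open Filter Topology Metric Vale.Agent.P298 Module
open Vale.Agent.P298.H766 (ser serIdeal ser_mul ser_add ser_sub ser_const ser_congr ser_sum
  constantCoeff_ser colength_iff_ser)
open _root_.P298.H824 (zhom zhom_X mem_of_forall_mem_sup_pow span_eq_top_of_separated zhom_finite)

variable {n k m d : ℕ}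

/-- germs `s`, vanishing at `0`, and a basis `b` of the quotient by the ideal (s) -/
structure Bas (s : Fin k → (Fin n → ℂ) → ℂ) (b : Fin d → (Fin n → ℂ) → ℂ) : Prop where
  hs : ∀ j, Hol (s j)
  hs0 : ∀ j, s j 0 = 0
  hb : ∀ l, Hol (b l)
  H : ∀ f, Hol f → ∃! c : Fin d → ℂ, InIdeal s (fun x => f x - ∑ i, c i * b i x)

theorem inIdeal_of_ser {s : Fin k → (Fin n → ℂ) → ℂ} (hs : ∀ j, Hol (s j)) (hd : Colength s d)
    {u : (Fin n → ℂ) → ℂ} (hu : Hol u) (h : ser u ∈ serIdeal s) : InIdeal s u := by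
  have h0 : serIdeal s = H766.tayIdeal (H766.toA s hs) := by
    rw [serIdeal, H766.tayIdeal]
    congr 2
    funext j
    exact H766.ser_eq (hs j)
  have hfin : Module.Finite ℂ (MvPowerSeries (Fin n) ℂ ⧸ H766.tayIdeal (H766.toA s hs)) :=
    ((H766.colength_iff s hs d).1 hd).1
  obtain ⟨M, hM⟩ := H766.exists_qM_le (H766.toA s hs)
  rw [h0, H766.ser_eq hu] at h
  have h1 := (H766.mem_iff_of_le hM ⟨u, hu⟩).1 h
  rw [← H766.locIdeal_eq s hs] at h1
  exact (mem_locIdeal_iff hs _).1 h1

theorem ser_of_inIdeal {s : Fin k → (Fin n → ℂ) → ℂ} (hs : ∀ j, Hol (s j))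
    {u : (Fin n → ℂ) → ℂ} (h : InIdeal s u) : ser u ∈ serIdeal s := by
  obtain ⟨a, ha, hx⟩ := h
  have h2 : ser u = ser (fun x => ∑ i, a i x * s i x) := ser_congr hx
  rw [h2, ser_sum Finset.univ (u := fun i x => a i x * s i x) (fun i => (ha i).mul (hs i))]
  refine Submodule.sum_mem _ fun i _ => ?_
  rw [ser_mul (ha i) (hs i)]
  exact Ideal.mul_mem_left _ _ (Ideal.subset_span ⟨i, rfl⟩)

theorem inIdeal_zero (s : Fin k → (Fin n → ℂ) → ℂ) {u : (Fin n → ℂ) → ℂ}
    (hu : ∀ x, u x = 0) : InIdeal s u :=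
  ⟨fun _ _ => 0, fun _ => analyticAt_const, by filter_upwards with x; simp [hu]⟩

/-- the approximation of a power series by a germ -/
theorem exists_germ {s : Fin k → (Fin n → ℂ) → ℂ} (hs : ∀ j, Hol (s j)) (hd : Colength s d)
    (g : MvPowerSeries (Fin n) ℂ) : ∃ u, Hol u ∧ g - ser u ∈ serIdeal s := by
  have h0 : serIdeal s = H766.tayIdeal (H766.toA s hs) := by
    rw [serIdeal, H766.tayIdeal]
    congr 2
    funext j
    exact H766.ser_eq (hs j)
  have hfin : Module.Finite ℂ (MvPowerSeries (Fin n) ℂ ⧸ H766.tayIdeal (H766.toA s hs)) :=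
    ((H766.colength_iff s hs d).1 hd).1
  obtain ⟨M, hM⟩ := H766.exists_qM_le (H766.toA s hs)
  refine ⟨(H766.toAn n (g.truncTotal M) : AnFun n), (H766.toAn n (g.truncTotal M)).2, ?_⟩
  rw [h0]
  apply H766.mR_pow_le hM
  apply H766.mem_mR_pow_of_order M
  have h1 : ser ((H766.toAn n (g.truncTotal M) : AnFun n) : (Fin n → ℂ) → ℂ) =
      H766.T n (H766.toAn n (g.truncTotal M)) := H766.ser_eq (H766.toAn n (g.truncTotal M)).2
  rw [h1, H766.T_toAn]
  exact H766.exists_trunc M g

namespace Bas

variable {s : Fin k → (Fin n → ℂ) → ℂ} {b : Fin d → (Fin n → ℂ) → ℂ} (B : Bas s b)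

include B

theorem colength : Colength s d := ⟨b, B.hb, B.H⟩

theorem hol_comb (c : Fin d → ℂ) : Hol (fun x => ∑ l, c l * b l x) :=
  Finset.analyticAt_fun_sum _ fun l _ => analyticAt_const.mul (B.hb l)

theorem ser_comb (c : Fin d → ℂ) :
    ser (fun x => ∑ l, c l * b l x) = ∑ l, MvPowerSeries.C (c l) * ser (b l) := by
  rw [ser_sum Finset.univ (u := fun l x => c l * b l x) (fun l => analyticAt_const.mul (B.hb l))]
  refine Finset.sum_congr rfl fun l _ => ?_
  rw [ser_mul (u := fun _ => c l) analyticAt_const (B.hb l), ser_const]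

theorem hind (c : Fin d → ℂ) (h : (∑ l, MvPowerSeries.C (c l) * ser (b l)) ∈ serIdeal s) :
    c = 0 := by
  rw [← B.ser_comb] at h
  have h1 := inIdeal_of_ser B.hs B.colength (B.hol_comb c) h
  obtain ⟨c0, -, hc⟩ := B.H (fun _ => 0) analyticAt_const
  have h2 := hc 0 (inIdeal_zero s fun x => by simp)
  have h3 := hc (-c) (by
    simp only [Pi.neg_apply, neg_mul, Finset.sum_neg_distrib, zero_sub, neg_neg]
    exact h1)
  have h4 : -c = 0 := h3.trans h2.symm
  exact neg_eq_zero.1 h4

theorem hspan (g : MvPowerSeries (Fin n) ℂ) : ∃ c : Fin d → ℂ,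
    g - ∑ l, MvPowerSeries.C (c l) * ser (b l) ∈ serIdeal s := by
  obtain ⟨u, hu, hgu⟩ := exists_germ B.hs B.colength g
  obtain ⟨c, hc, -⟩ := B.H u hu
  refine ⟨c, ?_⟩
  have h1 := ser_of_inIdeal B.hs hc
  rw [ser_sub (v := fun x => ∑ i, c i * b i x) hu (B.hol_comb c), B.ser_comb] at h1
  have h2 := add_mem hgu h1
  rwa [sub_add_sub_cancel] at h2

end Bas

/-! ### lines -/

section lines

variable {s : Fin (m + 1) → (Fin (m + 1) → ℂ) → ℂ} {b : Fin d → (Fin (m + 1) → ℂ) → ℂ}

/-- the ideal of the line of direction (v, 1) -/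
noncomputable def lnI (s : Fin (m + 1) → (Fin (m + 1) → ℂ) → ℂ) (v : Fin m → ℂ) :
    Ideal (MvPowerSeries (Fin (m + 1)) ℂ) :=
  Ideal.span (Set.range fun i : Fin m =>
    ser (s i.castSucc) - MvPowerSeries.C (v i) * ser (s (Fin.last m)))

theorem lnI_sup (s : Fin (m + 1) → (Fin (m + 1) → ℂ) → ℂ) (v : Fin m → ℂ) :
    lnI s v ⊔ Ideal.span {ser (s (Fin.last m))} = serIdeal s := by
  apply le_antisymm
  · refine sup_le ?_ ?_
    · refine Ideal.span_le.2 ?_
      rintro _ ⟨i, rfl⟩
      exact sub_mem (Ideal.subset_span ⟨i.castSucc, rfl⟩)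
        (Ideal.mul_mem_left _ _ (Ideal.subset_span ⟨Fin.last m, rfl⟩))
    · rw [Ideal.span_le, Set.singleton_subset_iff]
      exact Ideal.subset_span ⟨Fin.last m, rfl⟩
  · refine Ideal.span_le.2 ?_
    rintro _ ⟨j, rfl⟩
    refine Fin.lastCases ?_ (fun i => ?_) j
    · exact Ideal.mem_sup_right (Ideal.mem_span_singleton_self _)
    · have h1 : ser (s i.castSucc) =
          (ser (s i.castSucc) - MvPowerSeries.C (v i) * ser (s (Fin.last m))) +
          MvPowerSeries.C (v i) * ser (s (Fin.last m)) := by ring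
      change ser (s i.castSucc) ∈ _
      rw [h1]
      exact Submodule.add_mem_sup (Ideal.subset_span ⟨i, rfl⟩)
        (Ideal.mul_mem_left _ _ (Ideal.mem_span_singleton_self _))

theorem cc_ser {u : (Fin n → ℂ) → ℂ} (hu : Hol u) (hu0 : u 0 = 0) :
    MvPowerSeries.constantCoeff (ser u) = 0 := by
  rw [constantCoeff_ser hu, hu0]

theorem Bas.reg (B : Bas s b) (v : Fin m → ℂ) (x : MvPowerSeries (Fin (m + 1)) ℂ)
    (hx : ser (s (Fin.last m)) * x ∈ lnI s v) : x ∈ lnI s v := by
  have hfin := ((colength_iff_ser B.hs d).1 B.colength).1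
  rw [← lnI_sup s v] at hfin
  refine H25.mem_of_mul_mem _ (ser (s (Fin.last m))) (fun i => ?_)
    (cc_ser (B.hs _) (B.hs0 _)) hfin x hx
  rw [map_sub, map_mul, cc_ser (B.hs _) (B.hs0 _), cc_ser (B.hs _) (B.hs0 _)]
  simp

/-- the coordinates adapted to the line -/
def zz (s : Fin (m + 1) → (Fin (m + 1) → ℂ) → ℂ) (v : Fin m → ℂ) (x : Fin (m + 1) → ℂ) :
    Fin (m + 1) → ℂ :=
  fun j => s j x - Fin.snoc (α := fun _ => ℂ) v 0 j * s (Fin.last m) x

theorem zz_last (v : Fin m → ℂ) (x : Fin (m + 1) → ℂ) :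
    zz s v x (Fin.last m) = s (Fin.last m) x := by simp [zz]

theorem zz_castSucc (v : Fin m → ℂ) (x : Fin (m + 1) → ℂ) (i : Fin m) :
    zz s v x i.castSucc = s i.castSucc x - v i * s (Fin.last m) x := by simp [zz]

/-- the direction of the line -/
def dir (v : Fin m → ℂ) : Fin (m + 1) → ℂ := Fin.snoc (α := fun _ => ℂ) v 1

theorem comp_mem (hs : ∀ j, Hol (s j)) (hs0 : ∀ j, s j 0 = 0) (v : Fin m → ℂ)
    {u : (Fin (m + 1) → ℂ) → ℂ} (hu : Hol u) :
    ser (fun x => u (fun j => s j x)) - ser (fun x => u (s (Fin.last m) x • dir v)) ∈ lnI s v := by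
  classical
  -- the function in the adapted coordinates
  set A : (Fin (m + 1) → ℂ) → (Fin (m + 1) → ℂ) := fun z j =>
    z j + Fin.snoc (α := fun _ => ℂ) v 0 j * z (Fin.last m) with hA
  have hAa : AnalyticAt ℂ A 0 := by
    refine AnalyticAt.pi fun j => ?_
    have h1 : AnalyticAt ℂ (fun z : Fin (m + 1) → ℂ => z j) 0 :=
      (ContinuousLinearMap.proj (R := ℂ) (φ := fun _ : Fin (m + 1) => ℂ) j).analyticAt 0
    have h2 : AnalyticAt ℂ (fun z : Fin (m + 1) → ℂ => z (Fin.last m)) 0 :=
      (ContinuousLinearMap.proj (R := ℂ) (φ := fun _ : Fin (m + 1) => ℂ) (Fin.last m)).analyticAt 0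
    exact h1.add (analyticAt_const.mul h2)
  have hA0 : A 0 = 0 := by
    funext j; simp [hA]
  have hG : AnalyticAt ℂ (fun z => u (A z)) 0 := by
    have h1 : AnalyticAt ℂ u (A 0) := by rw [hA0]; exact hu
    exact AnalyticAt.comp h1 hAa
  set π : (Fin (m + 1) → ℂ) →L[ℂ] (Fin (m + 1) → ℂ) :=
    (ContinuousLinearMap.single ℂ (fun _ : Fin (m + 1) => ℂ) (Fin.last m)).comp
      (ContinuousLinearMap.proj (Fin.last m)) with hπ
  have hπa : ∀ z, π z = Pi.single (Fin.last m) (z (Fin.last m)) := fun z => rfl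
  have hπn : ‖π‖ ≤ 1 := by
    refine ContinuousLinearMap.opNorm_le_bound _ zero_le_one fun z => ?_
    rw [hπa, one_mul, pi_norm_le_iff_of_nonneg (norm_nonneg z)]
    intro j
    by_cases hj : j = Fin.last m
    · subst hj; rw [Pi.single_eq_same]; exact norm_le_pi_norm z _
    · rw [Pi.single_eq_of_ne hj]; simp
  obtain ⟨Q, hQ, HQ⟩ := exists_division π hπn hG
  -- composition with `zz`
  have hzza : AnalyticAt ℂ (zz s v) 0 := by
    refine AnalyticAt.pi fun j => ?_
    exact (hs j).sub (analyticAt_const.mul (hs (Fin.last m)))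
  have hzz0 : zz s v 0 = 0 := by
    funext j; simp [zz, hs0]
  have hc : Tendsto (zz s v) (𝓝 0) (𝓝 0) := by
    have := hzza.continuousAt.tendsto
    rwa [hzz0] at this
  have hev := hc.eventually HQ
  have hQi : ∀ i : Fin m, Hol (fun x => Q (zz s v x) (Pi.single i.castSucc 1)) := by
    intro i
    have h1 : AnalyticAt ℂ Q (zz s v 0) := by rw [hzz0]; exact hQ
    have h2 : AnalyticAt ℂ (fun x => Q (zz s v x)) 0 := AnalyticAt.comp h1 hzza
    exact ((ContinuousLinearMap.apply ℂ ℂ (Pi.single i.castSucc 1 : Fin (m + 1) → ℂ)).analyticAt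
      _).comp h2
  have hsa : AnalyticAt ℂ (fun x => (fun j => s j x : Fin (m + 1) → ℂ)) 0 := AnalyticAt.pi hs
  have hsa0 : (fun j => s j 0 : Fin (m + 1) → ℂ) = 0 := by funext j; simp [hs0]
  have hcomp : Hol (fun x => u (fun j => s j x)) := by
    have h1 : AnalyticAt ℂ u (fun j => s j 0) := by rw [hsa0]; exact hu
    exact AnalyticAt.comp (f := fun x => (fun j => s j x : Fin (m + 1) → ℂ)) h1 hsa
  have hda : AnalyticAt ℂ (fun x => s (Fin.last m) x • dir v) 0 :=
    AnalyticAt.smul (hs _) analyticAt_const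
  have hcomp2 : Hol (fun x => u (s (Fin.last m) x • dir v)) := by
    have h1 : AnalyticAt ℂ u (s (Fin.last m) 0 • dir v) := by rw [hs0, zero_smul]; exact hu
    exact AnalyticAt.comp (f := fun x => s (Fin.last m) x • dir v) h1 hda
  have hai : ∀ i : Fin m, Hol (fun x => s i.castSucc x - v i * s (Fin.last m) x) := fun i =>
    (hs _).sub (analyticAt_const.mul (hs _))
  have key : ∀ᶠ x in 𝓝 (0 : Fin (m + 1) → ℂ),
      u (fun j => s j x) - u (s (Fin.last m) x • dir v) =
      ∑ i : Fin m, (s i.castSucc x - v i * s (Fin.last m) x) *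
        Q (zz s v x) (Pi.single i.castSucc 1) := by
    filter_upwards [hev] with x hx
    simp only [sub_zero, zero_add] at hx
    have e1 : A (zz s v x) = fun j => s j x := by
      funext j
      rw [hA]
      simp only [zz_last]
      simp only [zz]
      ring
    have e2 : A (π (zz s v x)) = s (Fin.last m) x • dir v := by
      funext j
      rw [hπa, zz_last, hA]
      simp only [Pi.smul_apply, smul_eq_mul, Pi.single_eq_same]
      refine Fin.lastCases ?_ (fun i => ?_) j
      · simp [dir]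
      · have : (i.castSucc : Fin (m + 1)) ≠ Fin.last m := (Fin.castSucc_lt_last i).ne
        rw [Pi.single_eq_of_ne this]
        simp [dir, mul_comm]
    have e3 : zz s v x - π (zz s v x) =
        ∑ i : Fin m, (s i.castSucc x - v i * s (Fin.last m) x) •
          (Pi.single i.castSucc 1 : Fin (m + 1) → ℂ) := by
      funext j
      rw [hπa, Pi.sub_apply, Finset.sum_apply]
      refine Fin.lastCases ?_ (fun i => ?_) j
      · rw [Pi.single_eq_same, sub_self]
        symm
        refine Finset.sum_eq_zero fun i _ => ?_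
        have : Fin.last m ≠ (i.castSucc : Fin (m + 1)) := (Fin.castSucc_lt_last i).ne'
        simp
      · have : (i.castSucc : Fin (m + 1)) ≠ Fin.last m := (Fin.castSucc_lt_last i).ne
        rw [Pi.single_eq_of_ne this, sub_zero, zz_castSucc, Finset.sum_eq_single i]
        · simp
        · intro i' _ hi'
          have : (i.castSucc : Fin (m + 1)) ≠ i'.castSucc := fun h =>
            hi' (Fin.castSucc_injective m h).symm
          simp [Pi.single_eq_of_ne this]
        · intro h; exact absurd (Finset.mem_univ i) h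
    rw [e1, e2, e3, map_sum] at hx
    rw [hx]
    exact Finset.sum_congr rfl fun i _ => by rw [map_smul, smul_eq_mul]
  rw [← ser_sub hcomp hcomp2, ser_congr key,
    ser_sum Finset.univ (u := fun (i : Fin m) x => (s i.castSucc x - v i * s (Fin.last m) x) *
        Q (zz s v x) (Pi.single i.castSucc 1)) (fun i => (hai i).mul (hQi i))]
  refine Submodule.sum_mem _ fun i _ => ?_
  rw [ser_mul (hai i) (hQi i)]
  refine Ideal.mul_mem_right _ _ ?_
  have h1 : ser (fun x => s i.castSucc x - v i * s (Fin.last m) x) =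
      ser (s i.castSucc) - MvPowerSeries.C (v i) * ser (s (Fin.last m)) := by
    rw [ser_sub (v := fun x => v i * s (Fin.last m) x) (hs _) (analyticAt_const.mul (hs _)),
      ser_mul (u := fun _ => v i) analyticAt_const (hs _), ser_const]
  rw [h1]
  exact Ideal.subset_span ⟨i, rfl⟩

theorem line_analytic {u : (Fin (m + 1) → ℂ) → ℂ} (hu : Hol u) (w : Fin (m + 1) → ℂ) :
    AnalyticAt ℂ (fun t : ℂ => u (t • w)) 0 := by
  have h1 : AnalyticAt ℂ u ((0 : ℂ) • w) := by rw [zero_smul]; exact hu
  exact AnalyticAt.comp (f := fun t : ℂ => t • w) h1 (analyticAt_id.smul analyticAt_const)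

theorem zero_of_ser1 {h : ℂ → ℂ} (hh : AnalyticAt ℂ h 0) (h0 : ser1 h = 0) :
    ∀ᶠ t in 𝓝 (0 : ℂ), h t = 0 := by
  by_contra hcon
  have h1 : analyticOrderAt h 0 ≠ ⊤ := fun h2 => hcon (analyticOrderAt_eq_top.1 h2)
  obtain ⟨j, hj⟩ := ENat.ne_top_iff_exists.1 h1
  obtain ⟨u, hu, hu0, H⟩ := (hh.analyticOrderAt_eq_natCast (n := j)).1 hj.symm
  have h2 := order_ser1 (h := h) (j := j) hu hu0 (by
    filter_upwards [H] with t ht
    rw [ht, sub_zero, smul_eq_mul])
  rw [h0, PowerSeries.order_zero] at h2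
  exact ENat.top_ne_natCast j h2

/-- **Uniqueness** of the coefficients. -/
theorem Bas.uniq (B : Bas s b) {u : Fin d → (Fin (m + 1) → ℂ) → ℂ} (hu : ∀ l, Hol (u l))
    (h0 : ∀ᶠ x in 𝓝 (0 : Fin (m + 1) → ℂ), ∑ l, u l (fun j => s j x) * b l x = 0) (l : Fin d) :
    ∀ᶠ y in 𝓝 (0 : Fin (m + 1) → ℂ), u l y = 0 := by
  have hz := cc_ser (B.hs (Fin.last m)) (B.hs0 (Fin.last m))
  -- on the lines
  have hline : ∀ v : Fin m → ℂ, ∀ l, ∀ᶠ t in 𝓝 (0 : ℂ), u l (t • dir v) = 0 := by
    intro v
    have hser : (fun l => ser1 (fun t : ℂ => u l (t • dir v))) = 0 := by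
      refine zhom_indep hz (B.reg v) (b := fun l => ser (b l)) (fun c hc => ?_) _ ?_
      · rw [lnI_sup] at hc
        exact B.hind c hc
      · have h1 : (∑ l, ser (fun x => u l (fun j => s j x)) * ser (b l)) = 0 := by
          have hcomp : ∀ l, Hol (fun x => u l (fun j => s j x)) := by
            intro l
            have hsa0 : (fun j => s j 0 : Fin (m + 1) → ℂ) = 0 := by funext j; simp [B.hs0]
            have h1 : AnalyticAt ℂ (u l) (fun j => s j 0) := by rw [hsa0]; exact hu l
            exact AnalyticAt.comp (f := fun x => (fun j => s j x : Fin (m + 1) → ℂ)) h1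
              (AnalyticAt.pi B.hs)
          have h2 : ser (fun x => ∑ l, u l (fun j => s j x) * b l x) = ser (fun _ => 0) :=
            ser_congr h0
          rw [ser_sum Finset.univ (u := fun l x => u l (fun j => s j x) * b l x)
            (fun l => (hcomp l).mul (B.hb l)), ser_const, map_zero] at h2
          rw [← h2]
          exact Finset.sum_congr rfl fun l _ => (ser_mul (hcomp l) (B.hb l)).symm
        have h3 : ∀ l, zhom (lnI s v) (ser (s (Fin.last m))) hz
            (ser1 fun t : ℂ => u l (t • dir v)) =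
            Ideal.Quotient.mk (lnI s v) (ser (fun x => u l (fun j => s j x))) := by
          intro l
          rw [← zhom_ser1 (lnI s v) (B.hs (Fin.last m)) (B.hs0 _) hz (line_analytic (hu l) (dir v)),
            eq_comm, Ideal.Quotient.eq]
          exact comp_mem B.hs B.hs0 v (hu l)
        calc ∑ l, zhom (lnI s v) (ser (s (Fin.last m))) hz (ser1 fun t : ℂ => u l (t • dir v)) *
              Ideal.Quotient.mk (lnI s v) (ser (b l))
            = Ideal.Quotient.mk (lnI s v)
                (∑ l, ser (fun x => u l (fun j => s j x)) * ser (b l)) := by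
              rw [map_sum]
              exact Finset.sum_congr rfl fun l _ => by rw [h3, map_mul]
          _ = 0 := by rw [h1, map_zero]
    intro l
    exact zero_of_ser1 (line_analytic (hu l) (dir v)) (congrFun hser l)
  -- points with nonzero last coordinate
  obtain ⟨ρ, hρ, Hρ⟩ := Metric.eventually_nhds_iff_ball.1
    (show ∀ᶠ y in 𝓝 (0 : Fin (m + 1) → ℂ), AnalyticAt ℂ (u l) y from (hu l).eventually_analyticAt)
  have hne : ∀ y ∈ ball (0 : Fin (m + 1) → ℂ) ρ, y (Fin.last m) ≠ 0 → u l y = 0 := by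
    intro y hy hy0
    have hy1 : y = y (Fin.last m) • dir (fun i => y i.castSucc / y (Fin.last m)) := by
      funext j
      refine Fin.lastCases ?_ (fun i => ?_) j
      · simp [dir]
      · simp only [dir, Pi.smul_apply, Fin.snoc_castSucc, smul_eq_mul]
        field_simp
    set w := dir (fun i => y i.castSucc / y (Fin.last m)) with hw
    have hconv : Convex ℝ ((fun t : ℂ => t • w) ⁻¹' ball (0 : Fin (m + 1) → ℂ) ρ) := by
      have : IsLinearMap ℝ (fun t : ℂ => t • w) :=
        ⟨fun a b => add_smul a b w, fun c a => smul_assoc c a w⟩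
      exact (convex_ball (0 : Fin (m + 1) → ℂ) ρ).is_linear_preimage this
    have han : AnalyticOnNhd ℂ (fun t : ℂ => u l (t • w))
        ((fun t : ℂ => t • w) ⁻¹' ball (0 : Fin (m + 1) → ℂ) ρ) := by
      intro t ht
      exact AnalyticAt.comp (f := fun t : ℂ => t • w) (Hρ _ ht)
        (analyticAt_id.smul analyticAt_const)
    have h2 := han.eqOn_zero_of_preconnected_of_eventuallyEq_zero hconv.isPreconnected
      (z₀ := 0) (by simpa using hρ) (hline _ l)
    have h3 := h2 (x := y (Fin.last m)) (by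
      change y (Fin.last m) • w ∈ ball (0 : Fin (m + 1) → ℂ) ρ
      rw [← hy1]; exact hy)
    simp only [Pi.zero_apply] at h3
    rwa [← hy1] at h3
  -- all points
  filter_upwards [ball_mem_nhds (0 : Fin (m + 1) → ℂ) hρ] with y hy
  by_cases hy0 : y (Fin.last m) = 0
  · have hcu : ContinuousAt (fun τ : ℂ => Function.update y (Fin.last m) τ) 0 := by
      have : Continuous (fun τ : ℂ => Function.update y (Fin.last m) τ) :=
        continuous_const.update _ continuous_id
      exact this.continuousAt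
    have hup : Function.update y (Fin.last m) 0 = y := by
      rw [← hy0, Function.update_eq_self]
    have h1 : ∀ᶠ τ in 𝓝[≠] (0 : ℂ), u l (Function.update y (Fin.last m) τ) = 0 := by
      have h2 : ∀ᶠ τ in 𝓝 (0 : ℂ), Function.update y (Fin.last m) τ ∈ ball 0 ρ := by
        have := hcu.tendsto
        rw [hup] at this
        exact this.eventually (isOpen_ball.mem_nhds hy)
      filter_upwards [nhdsWithin_le_nhds h2, self_mem_nhdsWithin] with τ hτ hτ0
      refine hne _ hτ ?_
      rw [Function.update_self]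
      exact hτ0
    have h3 : Tendsto (fun τ : ℂ => u l (Function.update y (Fin.last m) τ)) (𝓝[≠] 0)
        (𝓝 (u l y)) := by
      have h4 : ContinuousAt (u l) (Function.update y (Fin.last m) 0) := by
        rw [hup]; exact (Hρ y hy).continuousAt
      have h5 : ContinuousAt (fun τ : ℂ => u l (Function.update y (Fin.last m) τ)) 0 :=
        ContinuousAt.comp (g := u l) h4 hcu
      have := h5.tendsto
      rw [hup] at this
      exact this.mono_left nhdsWithin_le_nhds
    exact tendsto_nhds_unique (h3.congr' h1) tendsto_const_nhds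
  · exact hne y hy hy0

end lines

end Vale.Agent.P298.H714
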